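import Crest.Agent.S0010aux.Types

set_option autoImplicit false
set_option linter.unusedSectionVars false
set_option linter.unusedSimpArgs false
set_option linter.unusedVariables false
set_option linter.unnecessarySimpa false

open Polynomial TensorProduct IntermediateField

/-!
Facts about finitely generated extensions of algebraically closed fields.
-/

namespace Crest.Agent.S0010

open scoped IntermediateField.algebraAdjoinAdjoin in
theorem exists_deriv_extend {k K ι : Type*} [Field k] [Field K] [Algebra k K] {v : ι → K}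
    (hv : AlgebraicIndependent k v)
    [Algebra.IsSeparable (IntermediateField.adjoin k (Set.range v)) K] (i : ι) :
    ∃ D : Derivation k K K, D (v i) = 1 ∧ ∀ j, j ≠ i → D (v j) = 0 := by
  classical
  have h1 : Algebra.FormallyEtale (Algebra.adjoin k (Set.range v))
      (IntermediateField.adjoin k (Set.range v)) :=
    .of_isLocalization (nonZeroDivisors _)
  have h2 : Algebra.FormallyEtale (IntermediateField.adjoin k (Set.range v)) K :=
    Algebra.FormallyEtale.of_isSeparable _ K
  have h3 : Algebra.FormallyEtale (Algebra.adjoin k (Set.range v)) K :=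
    .comp _ (IntermediateField.adjoin k (Set.range v)) _
  let B := Algebra.adjoin k (Set.range v)
  let e : MvPolynomial ι k ≃ₐ[k] B := hv.aevalEquiv
  have he : ∀ q : MvPolynomial ι k, ((e q : B) : K) = MvPolynomial.aeval v q := fun q => by
    exact hv.aevalEquiv_apply_coe q
  let d : Derivation k B K :=
    { toFun := fun b => MvPolynomial.aeval v (MvPolynomial.pderiv i (e.symm b))
      map_add' := fun a b => by simp
      map_smul' := fun r b => by simp
      map_one_eq_zero' := by simp
      leibniz' := fun a b => by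
        have ha : algebraMap B K a = MvPolynomial.aeval v (e.symm a) := by
          rw [← he, e.apply_symm_apply]; rfl
        have hb : algebraMap B K b = MvPolynomial.aeval v (e.symm b) := by
          rw [← he, e.apply_symm_apply]; rfl
        simp only [LinearMap.coe_mk, AddHom.coe_mk, map_mul, Derivation.leibniz, map_add,
          smul_eq_mul, Algebra.smul_def, ha, hb] }
  let f : Ω[B⁄k] →ₗ[B] K := d.liftKaehlerDifferential
  let g : K ⊗[B] Ω[B⁄k] →ₗ[K] K := LinearMap.liftBaseChange K f
  let E := KaehlerDifferential.tensorKaehlerEquivOfFormallyEtale k B K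
  let D : Derivation k K K := (g ∘ₗ E.symm.toLinearMap).compDer (KaehlerDifferential.D k K)
  have hD : ∀ b : B, D (algebraMap B K b) = d b := by
    intro b
    show g (E.symm (KaehlerDifferential.D k K (algebraMap B K b))) = d b
    rw [KaehlerDifferential.tensorKaehlerEquivOfFormallyEtale_symm_D_algebraMap]
    simp [g, f]
  have hv' : ∀ j, v j = algebraMap B K (e (MvPolynomial.X j)) := fun j => by
    show v j = ((e (MvPolynomial.X j) : B) : K)
    rw [he]; simp
  refine ⟨D, ?_, ?_⟩
  · rw [hv' i, hD]
    show MvPolynomial.aeval v (MvPolynomial.pderiv i (e.symm (e (MvPolynomial.X i)))) = 1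
    rw [e.symm_apply_apply]; simp
  · intro j hj
    rw [hv' j, hD]
    show MvPolynomial.aeval v (MvPolynomial.pderiv i (e.symm (e (MvPolynomial.X j)))) = 0
    rw [e.symm_apply_apply, MvPolynomial.pderiv_X_of_ne hj]; simp

theorem essFinite {K : Type*} [Field K] (k : Subfield K)
    (hK : ∃ s : Finset K, Subfield.closure ((k : Set K) ∪ (s : Set K)) = ⊤) :
    Algebra.EssFiniteType k K := by
  rw [← IntermediateField.fg_top_iff]
  obtain ⟨s, hs⟩ := hK
  refine ⟨s, ?_⟩
  rw [eq_top_iff]
  intro x _
  have hx : x ∈ Subfield.closure ((k : Set K) ∪ (s : Set K)) := by rw [hs]; trivial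
  have hle : Subfield.closure ((k : Set K) ∪ (s : Set K)) ≤
      (IntermediateField.adjoin k (s : Set K)).toSubfield := by
    rw [Subfield.closure_le]
    rintro y (hy | hy)
    · exact (IntermediateField.adjoin k (s : Set K)).algebraMap_mem ⟨y, hy⟩
    · exact IntermediateField.subset_adjoin _ _ hy
  exact hle hx

theorem exists_not_mem_Ad {p : ℕ} [Fact p.Prime] {K : Type*} [Field K] [CharP K p] (k : Subfield K)
    [IsAlgClosed k]
    (hK : ∃ s : Finset K, Subfield.closure ((k : Set K) ∪ (s : Set K)) = ⊤)
    (hK2 : 2 ≤ Algebra.trdeg k K) (x : K) : ∃ y : K, y ∉ Ad p x := by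
  by_contra hcon
  push Not at hcon
  have := essFinite k hK
  obtain ⟨s, hs, hsep⟩ := exists_isTranscendenceBasis_and_isSeparable_of_perfectField k K
  have hcard : 2 ≤ s.card := by
    have h1 := hs.cardinalMk_eq_trdeg
    rw [← h1] at hK2
    simpa using hK2
  obtain ⟨a, ha, b, hb, hab⟩ := Finset.one_lt_card.1 hcard
  have hsep' : Algebra.IsSeparable (IntermediateField.adjoin k (Set.range ((↑) : s → K))) K := by
    convert! hsep <;> simp
  obtain ⟨D₁, h11, h12⟩ := exists_deriv_extend hs.1 ⟨a, ha⟩
  obtain ⟨D₂, h21, h22⟩ := exists_deriv_extend hs.1 ⟨b, hb⟩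
  have h1b : D₁ b = 0 := h12 ⟨b, hb⟩ (fun h => hab (congrArg Subtype.val h).symm)
  have h2a : D₂ a = 0 := h22 ⟨a, ha⟩ (fun h => hab (congrArg Subtype.val h))
  have h1a : D₁ a = 1 := h11
  have h2b : D₂ b = 1 := h21
  let E₁ : Derivation ℤ K K := D₁.restrictScalars ℤ
  let E₂ : Derivation ℤ K K := D₂.restrictScalars ℤ
  have w1 : E₁ x * E₂ b = E₂ x * E₁ b := dep_wedge E₁ E₂ (hcon b)
  have w2 : E₁ x * E₂ a = E₂ x * E₁ a := dep_wedge E₁ E₂ (hcon a)
  have e1 : E₁ b = 0 := h1b
  have e2 : E₂ a = 0 := h2a
  have e3 : E₁ a = 1 := h1a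
  have e4 : E₂ b = 1 := h2b
  rw [e1, e4] at w1
  have h0 : E₁ x = 0 := by linear_combination w1
  have := deriv_zero (E := Kp p K) hKp E₁ (fun e he => deriv_Kp E₁ he) h0 (hcon a)
  rw [e3] at this
  exact one_ne_zero this

/-- An element having roots of all orders in a finitely generated extension `K` of an algebraically
closed field `k` lies in `k`. -/
theorem mem_of_divisible {K : Type*} [Field K] (k : Subfield K) [IsAlgClosed k]
    (hK : ∃ s : Finset K, Subfield.closure ((k : Set K) ∪ (s : Set K)) = ⊤) (a : K)
    (h : ∀ n : ℕ, 0 < n → ∃ b : K, b ^ n = a) : a ∈ k := by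
  by_contra ha
  have hfin := essFinite k hK
  -- a is transcendental
  have htr : Transcendental k a := by
    intro halg
    apply ha
    have hint : IsIntegral k a := halg.isIntegral
    have h1 : (minpoly k a).degree = 1 :=
      IsAlgClosed.degree_eq_one_of_irreducible k (minpoly.irreducible hint)
    obtain ⟨c, hc⟩ := minpoly.mem_range_of_degree_eq_one k a h1
    rw [← hc]
    exact c.2
  have hind : AlgebraicIndepOn k id ({a} : Set K) := by
    have := (algebraicIndependent_unique_type_iff (R := k) (A := K) (ι := ({a} : Set K)) (x := fun i => id (i : K))).2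
      (by
        have hd : ((default : ({a} : Set K)) : K) = a := (default : ({a} : Set K)).2
        show Transcendental k ((default : ({a} : Set K)) : K)
        rw [hd]; exact htr)
    exact this
  obtain ⟨B, hB, hBt⟩ := exists_isTranscendenceBasis_superset hind
  have haB : a ∈ B := hB rfl
  let k' := IntermediateField.adjoin k (B \ {a})
  let M := IntermediateField.adjoin k B
  have htr' : Transcendental k' a := by
    have h1 := AlgebraicIndependent.transcendental_adjoin (R := k) (A := K) (x := ((↑) : B → K))
      hBt.1 (i := ⟨a, haB⟩) (s := {⟨a, haB⟩}ᶜ) (by simp)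
    intro halg
    apply h1
    have h2 : ((↑) : B → K) '' ({⟨a, haB⟩}ᶜ : Set B) = B \ {a} := by
      ext y; constructor
      · rintro ⟨z, hz, rfl⟩
        refine ⟨z.2, ?_⟩
        intro h
        apply hz
        exact Subtype.ext h
      · rintro ⟨hy, hya⟩
        exact ⟨⟨y, hy⟩, fun h => hya (congrArg Subtype.val h), rfl⟩
    rw [h2]
    exact isAlgebraic_adjoin_iff.1 halg
  have hMalg : Algebra.IsAlgebraic M K := by
    have := hBt.isAlgebraic_field
    have e : IntermediateField.adjoin k (Set.range ((↑) : B → K)) = M := by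
      simp [M]
    rw [e] at this
    exact this
  have hMess : Algebra.EssFiniteType M K := Algebra.EssFiniteType.of_comp k M K
  have hMfin : FiniteDimensional M K := Algebra.finite_of_essFiniteType_of_isAlgebraic
  obtain ⟨q, hqN, hq⟩ := Nat.exists_infinite_primes (Module.finrank M K + 1)
  obtain ⟨b, hb⟩ := h q hq.pos
  have haM : a ∈ M := IntermediateField.subset_adjoin _ _ haB
  -- a is not a q-th power in M
  have hnot : ∀ c : M, c ^ q ≠ (⟨a, haM⟩ : M) := by
    intro c hc
    have hcM : (c : K) ∈ IntermediateField.adjoin k' ({a} : Set K) := by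
      have h1 : (c : K) ∈ (IntermediateField.adjoin k' ({a} : Set K)).restrictScalars k := by
        rw [IntermediateField.adjoin_adjoin_left]
        have h2 : B \ {a} ∪ {a} = B := by
          rw [Set.sdiff_union_self]
          exact Set.union_eq_self_of_subset_right hB
        rw [h2]
        exact c.2
      exact h1
    rw [IntermediateField.mem_adjoin_simple_iff] at hcM
    obtain ⟨r, s, hrs⟩ := hcM
    have hcq : (c : K) ^ q = a := congrArg (fun z : M => (z : K)) hc
    have ha0 : a ≠ 0 := by
      rintro rfl
      exact ha k.zero_mem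
    have hc0 : (c : K) ≠ 0 := by
      intro h0
      rw [h0, zero_pow hq.ne_zero] at hcq
      exact ha0 hcq.symm
    have hs0 : aeval a s ≠ 0 := by
      intro h0
      rw [h0, div_zero] at hrs
      exact hc0 hrs
    have hr0 : aeval a r ≠ 0 := by
      intro h0
      rw [h0, zero_div] at hrs
      exact hc0 hrs
    have hr0' : r ≠ 0 := by rintro rfl; simp at hr0
    have hs0' : s ≠ 0 := by rintro rfl; simp at hs0
    have heq : aeval a (r ^ q) = aeval a (X * s ^ q) := by
      simp only [map_pow, map_mul, aeval_X]
      rw [hrs, div_pow] at hcq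
      field_simp at hcq
      linear_combination hcq
    have hpoly : r ^ q = X * s ^ q := (transcendental_iff_injective.1 htr') heq
    have hdeg := congrArg natDegree hpoly
    rw [natDegree_pow, natDegree_mul X_ne_zero (pow_ne_zero _ hs0'), natDegree_X,
      natDegree_pow] at hdeg
    have hd1 : q ∣ 1 + q * s.natDegree := ⟨_, hdeg.symm⟩
    have hd2 : q ∣ 1 := (Nat.dvd_add_left (Dvd.intro _ rfl)).1 hd1
    exact hq.one_lt.ne' (Nat.dvd_one.1 hd2)
  have hirr : Irreducible (X ^ q - C (⟨a, haM⟩ : M)) := X_pow_sub_C_irreducible_of_prime hq hnot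
  have hmin : minpoly M b = X ^ q - C (⟨a, haM⟩ : M) := by
    symm
    refine minpoly.eq_of_irreducible_of_monic hirr ?_ (monic_X_pow_sub_C _ hq.ne_zero)
    simp only [map_sub, map_pow, aeval_X, aeval_C]
    show b ^ q - a = 0
    rw [hb]; ring
  have hdeg := minpoly.natDegree_le (A := M) b
  rw [hmin, natDegree_X_pow_sub_C] at hdeg
  omega

end Crest.Agent.S0010
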