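import Crest.Agent.S0010aux.Maps
import Crest.Prelude.Def_MilnorK

set_option autoImplicit false
set_option linter.unusedSectionVars false
set_option linter.unusedSimpArgs false
set_option linter.unusedVariables false
set_option linter.unnecessarySimpa false

open Polynomial TensorProduct
open Crest.NumberTheoryR.MilnorK

/-!
The Steinberg relations and dependence.
-/

namespace Crest.Agent.S0010

section

variable {p : ℕ} [Fact p.Prime] {K : Type*} [Field K] [CharP K p]

theorem cls_mul (u v : Kˣ) : cls K p (u * v) = cls K p u + cls K p v := rfl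

theorem cls_one : cls K p 1 = 0 := rfl

theorem cls_inv (u : Kˣ) : cls K p u⁻¹ = - cls K p u := rfl

theorem cls_surj (q : KOne K p) : ∃ u : Kˣ, cls K p u = q := by
  induction q using QuotientAddGroup.induction_on with
  | H z => exact ⟨z.toMul, rfl⟩

theorem cls_eq_zero {u : Kˣ} : cls K p u = 0 ↔ (u : K) ∈ Kp p K := by
  unfold cls
  rw [QuotientAddGroup.eq_zero_iff, mem_Kp]
  unfold pMultiples
  rw [AddMonoidHom.mem_range]
  constructor
  · rintro ⟨v, hv⟩
    refine ⟨(v.toMul : Kˣ), ?_⟩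
    have h1 : v.toMul ^ p = u := by
      have := congrArg Additive.toMul hv
      simpa using this
    rw [← h1]; simp
  · rintro ⟨b, hb⟩
    have hb0 : b ≠ 0 := by
      rintro rfl
      rw [zero_pow (Fact.out : p.Prime).ne_zero] at hb
      exact u.ne_zero hb.symm
    refine ⟨Additive.ofMul (Units.mk0 b hb0), ?_⟩
    have : (Units.mk0 b hb0) ^ p = u := by
      ext
      simpa using hb
    rw [← this]
    rfl

theorem cls_eq_iff {u v : Kˣ} : cls K p u = cls K p v ↔ Eqv (Kp p K) (u : K) (v : K) := by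
  have h1 : cls K p u = cls K p v ↔ cls K p (u * v⁻¹) = 0 := by
    rw [cls_mul, cls_inv, ← sub_eq_add_neg, sub_eq_zero]
  rw [h1, cls_eq_zero]
  constructor
  · intro h
    refine ⟨_, h, by simp, ?_⟩
    simp
  · rintro ⟨c, hc, hc0, h⟩
    have : ((u * v⁻¹ : Kˣ) : K) = c := by
      push_cast
      rw [h]
      field_simp
    rw [this]; exact hc

/-- The logarithmic derivative on `KOne`. -/
noncomputable def dlogAdd (D : Derivation ℤ K K) : Additive Kˣ →+ K where
  toFun u := D (u.toMul : Kˣ) / ((u.toMul : Kˣ) : K)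
  map_zero' := by simp
  map_add' u v := by
    have hu : ((u.toMul : Kˣ) : K) ≠ 0 := Units.ne_zero _
    have hv : ((v.toMul : Kˣ) : K) ≠ 0 := Units.ne_zero _
    simp only [toMul_add, Units.val_mul, Derivation.leibniz, smul_eq_mul]
    field_simp
    ring

theorem dlogAdd_pow (D : Derivation ℤ K K) (u : Additive Kˣ) (hu : u ∈ pMultiples K p) :
    dlogAdd D u = 0 := by
  unfold pMultiples at hu
  rw [AddMonoidHom.mem_range] at hu
  obtain ⟨v, rfl⟩ := hu
  have : (nsmulAddMonoidHom p : Additive Kˣ →+ Additive Kˣ) v = p • v := rfl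
  rw [this, map_nsmul, nsmul_eq_mul, CharP.cast_eq_zero K p, zero_mul]

/-- The logarithmic derivative on `KOne`, as an additive map. -/
noncomputable def dlog (D : Derivation ℤ K K) : KOne K p →+ K :=
  QuotientAddGroup.lift (pMultiples K p) (dlogAdd D) (fun u hu => dlogAdd_pow D u hu)

theorem dlog_cls (D : Derivation ℤ K K) (u : Kˣ) : dlog (p := p) D (cls K p u) = D u / u := rfl

/-- The wedge of two logarithmic derivatives as a bi-additive map. -/
noncomputable def wedge (D₁ D₂ : Derivation ℤ K K) : KOne K p →+ KOne K p →+ K where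
  toFun a :=
    { toFun := fun b => dlog (p := p) D₁ a * dlog (p := p) D₂ b - dlog (p := p) D₂ a * dlog (p := p) D₁ b
      map_zero' := by simp
      map_add' := fun b c => by simp only [map_add]; ring }
  map_zero' := by
    refine AddMonoidHom.ext fun b => ?_
    show dlog (p := p) D₁ 0 * dlog (p := p) D₂ b - dlog (p := p) D₂ 0 * dlog (p := p) D₁ b = 0
    rw [map_zero, map_zero]; ring
  map_add' a b := by
    refine AddMonoidHom.ext fun c => ?_
    show dlog (p := p) D₁ (a + b) * dlog (p := p) D₂ c - dlog (p := p) D₂ (a + b) * dlog (p := p) D₁ c =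
      (dlog (p := p) D₁ a * dlog (p := p) D₂ c - dlog (p := p) D₂ a * dlog (p := p) D₁ c) +
      (dlog (p := p) D₁ b * dlog (p := p) D₂ c - dlog (p := p) D₂ b * dlog (p := p) D₁ c)
    rw [map_add, map_add]
    ring

theorem wedge_apply (D₁ D₂ : Derivation ℤ K K) (a b : KOne K p) :
    wedge D₁ D₂ a b = dlog (p := p) D₁ a * dlog (p := p) D₂ b - dlog (p := p) D₂ a * dlog (p := p) D₁ b := rfl

/-- The wedge on the tensor product. -/
noncomputable def wedgeT (D₁ D₂ : Derivation ℤ K K) :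
    KOne K p ⊗[ZMod p] KOne K p →+ K :=
  TensorProduct.liftAddHom (wedge D₁ D₂) (fun r a b => by
    obtain ⟨n, rfl⟩ := ZMod.natCast_zmod_surjective r
    have h1 : ((n : ℕ) : ZMod p) • a = n • a := Nat.cast_smul_eq_nsmul _ n a
    have h2 : ((n : ℕ) : ZMod p) • b = n • b := Nat.cast_smul_eq_nsmul _ n b
    rw [h1, h2]
    simp only [map_nsmul, AddMonoidHom.nsmul_apply])

theorem wedgeT_tmul (D₁ D₂ : Derivation ℤ K K) (a b : KOne K p) :
    wedgeT (p := p) D₁ D₂ (a ⊗ₜ[ZMod p] b) = wedge D₁ D₂ a b := rfl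

theorem wedgeT_steinberg (D₁ D₂ : Derivation ℤ K K) {t : KOne K p ⊗[ZMod p] KOne K p}
    (ht : t ∈ steinberg K p) : wedgeT (p := p) D₁ D₂ t = 0 := by
  unfold steinberg at ht
  induction ht using Submodule.span_induction with
  | mem x hx =>
    obtain ⟨f, hf, hf1, rfl⟩ := hx
    rw [wedgeT_tmul, wedge_apply, dlog_cls, dlog_cls, dlog_cls, dlog_cls]
    simp only [Units.val_mk0, map_sub, Derivation.map_one_eq_zero]
    field_simp
    ring
  | zero => exact map_zero _
  | add x y _ _ hx hy => rw [map_add, hx, hy, add_zero]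
  | smul a x _ hx =>
    obtain ⟨n, rfl⟩ := ZMod.natCast_zmod_surjective a
    have h1 : ((n : ℕ) : ZMod p) • x = n • x := Nat.cast_smul_eq_nsmul _ n x
    rw [h1, map_nsmul, hx, nsmul_zero]

/-- The Steinberg relation between two elements. -/
def Rel (p : ℕ) [Fact p.Prime] {K : Type*} [Field K] [CharP K p] (a b : KOne K p) : Prop :=
  a ⊗ₜ[ZMod p] b ∈ steinberg K p

theorem Rel.dep {u v : Kˣ} (hu : (u : K) ∉ Kp p K) (h : Rel p (cls K p u) (cls K p v)) :
    (v : K) ∈ Ad p (u : K) := by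
  by_contra hv
  have hvF : (v : K) ∉ Kp p K := fun h => hv (Kp_le_Ad _ h)
  have huv : (u : K) ∉ Ad p (v : K) := fun h => hv (exchange hKp hu h)
  obtain ⟨D₁, hD₁, hD₁u⟩ := exists_deriv (hAd (v : K)) huv
  obtain ⟨D₂, hD₂, hD₂v⟩ := exists_deriv (hAd (u : K)) hv
  have h1 := wedgeT_steinberg D₁ D₂ h
  rw [wedgeT_tmul, wedge_apply, dlog_cls, dlog_cls, dlog_cls, dlog_cls, hD₁u, hD₂v,
    hD₂ _ (self_mem_Ad _), hD₁ _ (self_mem_Ad _)] at h1
  have hu0 : (u : K) ≠ 0 := u.ne_zero
  have hv0 : (v : K) ≠ 0 := v.ne_zero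
  field_simp at h1
  simp at h1

theorem neg_one_mem : (-1 : K) ∈ Kp p K := (Kp p K).neg_mem (Kp p K).one_mem

theorem rel_add {u v : Kˣ} {a : K} (ha : a ∈ Kp p K) (ha0 : a ≠ 0) (h : (v : K) = u + a) :
    Rel p (cls K p u) (cls K p v) := by
  have hf : -(u : K) / a ≠ 0 := div_ne_zero (neg_ne_zero.2 u.ne_zero) ha0
  have h1f : 1 - (-(u : K) / a) = v / a := by
    rw [h]; field_simp; ring
  have hf1 : 1 - (-(u : K) / a) ≠ 0 := by
    rw [h1f]; exact div_ne_zero v.ne_zero ha0
  have e1 : cls K p (Units.mk0 _ hf) = cls K p u := by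
    rw [cls_eq_iff]
    refine ⟨-1 / a, (Kp p K).div_mem neg_one_mem ha, div_ne_zero (by simp) ha0, ?_⟩
    simp only [Units.val_mk0]
    ring
  have e2 : cls K p (Units.mk0 _ hf1) = cls K p v := by
    rw [cls_eq_iff]
    refine ⟨1 / a, (Kp p K).div_mem (Kp p K).one_mem ha, div_ne_zero one_ne_zero ha0, ?_⟩
    simp only [Units.val_mk0]
    rw [h1f]
    ring
  unfold Rel steinberg
  rw [← e1, ← e2]
  exact Submodule.subset_span ⟨_, hf, hf1, rfl⟩

end

section

variable {p : ℕ} [Fact p.Prime] {K L : Type*} [Field K] [CharP K p] [Field L] [CharP L p]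

theorem compat_fwd {Θ : KOne K p ≃ₗ[ZMod p] KOne L p} (hΘ : IsCompatible Θ) {a b : KOne K p}
    (h : Rel p a b) : Rel p (Θ a) (Θ b) := by
  unfold Rel at h ⊢
  unfold IsCompatible at hΘ
  rw [← hΘ]
  exact ⟨_, h, by simp⟩

theorem compat_symm {Θ : KOne K p ≃ₗ[ZMod p] KOne L p} (hΘ : IsCompatible Θ) :
    IsCompatible Θ.symm := by
  unfold IsCompatible at hΘ ⊢
  rw [← hΘ, ← Submodule.map_comp, ← TensorProduct.map_comp]
  have : Θ.symm.toLinearMap ∘ₗ Θ.toLinearMap = LinearMap.id := by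
    ext x; simp
  rw [this, TensorProduct.map_id, Submodule.map_id]

open Classical in
/-- A choice of representatives for `Θ`. -/
noncomputable def repMap (Θ : KOne K p ≃ₗ[ZMod p] KOne L p) (x : K) : L :=
  if h : x = 0 then 0 else (((cls_surj (Θ (cls K p (Units.mk0 x h)))).choose : Lˣ) : L)

theorem repMap_zero (Θ : KOne K p ≃ₗ[ZMod p] KOne L p) : repMap Θ 0 = 0 := by
  unfold repMap; simp

theorem repMap_spec (Θ : KOne K p ≃ₗ[ZMod p] KOne L p) {x : K} (hx : x ≠ 0) :
    ∃ h : repMap Θ x ≠ 0, cls L p (Units.mk0 _ h) = Θ (cls K p (Units.mk0 x hx)) := by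
  have h1 : repMap Θ x = (((cls_surj (Θ (cls K p (Units.mk0 x hx)))).choose : Lˣ) : L) := by
    unfold repMap; rw [dif_neg hx]
  have h2 := (cls_surj (Θ (cls K p (Units.mk0 x hx)))).choose_spec
  refine ⟨by rw [h1]; exact Units.ne_zero _, ?_⟩
  refine Eq.trans ?_ h2
  congr 1
  ext
  simpa using h1

theorem repMap_mul (Θ : KOne K p ≃ₗ[ZMod p] KOne L p) {x y : K} (hx : x ≠ 0) (hy : y ≠ 0) :
    Eqv (Kp p L) (repMap Θ (x * y)) (repMap Θ x * repMap Θ y) := by
  obtain ⟨h1, e1⟩ := repMap_spec Θ hx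
  obtain ⟨h2, e2⟩ := repMap_spec Θ hy
  obtain ⟨h3, e3⟩ := repMap_spec Θ (mul_ne_zero hx hy)
  have : cls L p (Units.mk0 _ h3) = cls L p (Units.mk0 _ h1 * Units.mk0 _ h2) := by
    rw [e3, cls_mul, e1, e2, ← map_add, ← cls_mul]
    congr 2
    ext; simp
  rw [cls_eq_iff] at this
  simpa using this

theorem repMap_mem (Θ : KOne K p ≃ₗ[ZMod p] KOne L p) {x : K} (hx : x ≠ 0) :
    x ∈ Kp p K ↔ repMap Θ x ∈ Kp p L := by
  obtain ⟨h1, e1⟩ := repMap_spec Θ hx
  have a1 : x ∈ Kp p K ↔ cls K p (Units.mk0 x hx) = 0 := by rw [cls_eq_zero]; rfl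
  have a2 : repMap Θ x ∈ Kp p L ↔ cls L p (Units.mk0 _ h1) = 0 := by rw [cls_eq_zero]; rfl
  rw [a1, a2, e1]
  simp

theorem repMap_dep {Θ : KOne K p ≃ₗ[ZMod p] KOne L p} (hΘ : IsCompatible Θ) {x : K}
    (hx : x ∉ Kp p K) (hx1 : x + 1 ≠ 0) : repMap Θ (x + 1) ∈ Ad p (repMap Θ x) := by
  have hx0 : x ≠ 0 := fun h => hx (h ▸ (Kp p K).zero_mem)
  obtain ⟨h1, e1⟩ := repMap_spec Θ hx0
  obtain ⟨h2, e2⟩ := repMap_spec Θ hx1
  have hr : Rel p (cls K p (Units.mk0 x hx0)) (cls K p (Units.mk0 (x + 1) hx1)) :=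
    rel_add (a := 1) (Kp p K).one_mem one_ne_zero (by simp)
  have hr' := compat_fwd hΘ hr
  rw [← e1, ← e2] at hr'
  have := Rel.dep (u := Units.mk0 _ h1) (v := Units.mk0 _ h2) (by
    simpa using fun h => hx ((repMap_mem Θ hx0).2 h)) hr'
  simpa using this

/-- The subfield of elements mapped into `L^p(θ u)`. -/
def preField {Θ : KOne K p ≃ₗ[ZMod p] KOne L p} (hΘ : IsCompatible Θ) (E : Subfield L)
    (hE : Kp p L ≤ E) : Subfield K where
  carrier := {z | repMap Θ z ∈ E}
  mul_mem' := by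
    intro a b ha hb
    by_cases ha0 : a = 0
    · subst ha0; simpa using ha
    by_cases hb0 : b = 0
    · subst hb0; simpa using hb
    obtain ⟨c, hc, hc0, e⟩ := repMap_mul Θ ha0 hb0
    show repMap Θ (a * b) ∈ E
    rw [e]
    exact E.mul_mem (hE hc) (E.mul_mem ha hb)
  one_mem' := hE ((repMap_mem Θ one_ne_zero).1 (Kp p K).one_mem)
  zero_mem' := by
    show repMap Θ 0 ∈ E
    rw [repMap_zero]; exact E.zero_mem
  neg_mem' := by
    intro a ha
    by_cases ha0 : a = 0
    · subst ha0; simpa using ha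
    obtain ⟨c, hc, hc0, e⟩ := repMap_mul Θ (x := -1) (y := a) (by simp) ha0
    show repMap Θ (-a) ∈ E
    have : -a = -1 * a := by ring
    rw [this, e]
    exact E.mul_mem (hE hc) (E.mul_mem (hE ((repMap_mem Θ (by simp)).1 neg_one_mem)) ha)
  inv_mem' := by
    intro a ha
    by_cases ha0 : a = 0
    · subst ha0; simpa using ha
    show repMap Θ a⁻¹ ∈ E
    obtain ⟨c, hc, hc0, e⟩ := repMap_mul Θ (x := a⁻¹) (y := a) (inv_ne_zero ha0) ha0
    rw [inv_mul_cancel₀ ha0] at e
    obtain ⟨h1, e1⟩ := repMap_spec Θ ha0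
    have h2 : repMap Θ a⁻¹ = repMap Θ 1 / (c * repMap Θ a) := by
      rw [eq_div_iff (mul_ne_zero hc0 h1), e]; ring
    rw [h2]
    exact E.div_mem (hE ((repMap_mem Θ one_ne_zero).1 (Kp p K).one_mem)) (E.mul_mem (hE hc) ha)
  add_mem' := by
    intro a b ha hb
    by_cases ha0 : a = 0
    · subst ha0; simpa using hb
    by_cases hb0 : b = 0
    · subst hb0; simpa using ha
    show repMap Θ (a + b) ∈ E
    by_cases hab : a + b = 0
    · rw [hab, repMap_zero]; exact E.zero_mem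
    set t := a / b with ht
    have ht0 : t ≠ 0 := div_ne_zero ha0 hb0
    have hat : a = t * b := by rw [ht]; field_simp
    have hab' : a + b = (t + 1) * b := by rw [hat]; ring
    have ht1 : t + 1 ≠ 0 := by
      intro h
      rw [hab', h, zero_mul] at hab
      exact hab rfl
    have htE : repMap Θ t ∈ E := by
      obtain ⟨c, hc, hc0, e⟩ := repMap_mul Θ (x := t) (y := b) ht0 hb0
      rw [← hat] at e
      obtain ⟨h1, e1⟩ := repMap_spec Θ hb0
      have h2 : repMap Θ t = repMap Θ a / (c * repMap Θ b) := by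
        rw [eq_div_iff (mul_ne_zero hc0 h1), e]; ring
      rw [h2]
      exact E.div_mem ha (E.mul_mem (hE hc) hb)
    have ht1E : repMap Θ (t + 1) ∈ E := by
      by_cases htF : t ∈ Kp p K
      · exact hE ((repMap_mem Θ ht1).1 ((Kp p K).add_mem htF (Kp p K).one_mem))
      · exact Ad_le hE htE (repMap_dep hΘ htF ht1)
    obtain ⟨c, hc, hc0, e⟩ := repMap_mul Θ (x := t + 1) (y := b) ht1 hb0
    rw [hab', e]
    exact E.mul_mem (hE hc) (E.mul_mem ht1E hb)

theorem repMap_depMap {Θ : KOne K p ≃ₗ[ZMod p] KOne L p} (hΘ : IsCompatible Θ) :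
    DepMap p (repMap Θ) where
  ne_zero u hu := (repMap_spec Θ hu).1
  mul u v hu hv := repMap_mul Θ hu hv
  mem_iff u hu := repMap_mem Θ hu
  adj u v hu hv h := by
    have h1 : Ad p u ≤ preField hΘ (Ad p (repMap Θ u)) (Kp_le_Ad _) := by
      apply Ad_le
      · intro z hz
        show repMap Θ z ∈ Ad p (repMap Θ u)
        by_cases hz0 : z = 0
        · subst hz0; rw [repMap_zero]; exact (Ad p _).zero_mem
        · exact Kp_le_Ad _ ((repMap_mem Θ hz0).1 hz)
      · exact self_mem_Ad _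
    exact h1 h

theorem repMap_left (Θ : KOne K p ≃ₗ[ZMod p] KOne L p) {u : K} (hu : u ≠ 0) :
    Eqv (Kp p K) (repMap Θ.symm (repMap Θ u)) u := by
  obtain ⟨h1, e1⟩ := repMap_spec Θ hu
  obtain ⟨h2, e2⟩ := repMap_spec Θ.symm h1
  rw [e1, LinearEquiv.symm_apply_apply, cls_eq_iff] at e2
  simpa using e2

theorem repMap_depIso {Θ : KOne K p ≃ₗ[ZMod p] KOne L p} (hΘ : IsCompatible Θ) :
    DepIso p (repMap Θ) (repMap Θ.symm) where
  fwd := repMap_depMap hΘ
  bwd := repMap_depMap (compat_symm hΘ)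
  left u hu := repMap_left Θ hu
  right w hw := by
    have := repMap_left Θ.symm hw
    rwa [LinearEquiv.symm_symm] at this

end

end Crest.Agent.S0010
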