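import Mathlib

set_option autoImplicit false
set_option linter.unusedSectionVars false
set_option linter.unusedSimpArgs false
set_option linter.unusedVariables false
set_option linter.unnecessarySimpa false

open Polynomial

/-!
Derivations and subfields containing the `p`-th powers.
-/

namespace Crest.Agent.S0010

/-- The subfield of `p`-th powers. -/
def Kp (p : ℕ) [Fact p.Prime] (K : Type*) [Field K] [CharP K p] : Subfield K :=
  (frobenius K p).fieldRange

/-- `E(x)` as a subfield. -/
def AdjS {K : Type*} [Field K] (E : Subfield K) (x : K) : Subfield K :=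
  (IntermediateField.adjoin E {x}).toSubfield

theorem self_mem_AdjS {K : Type*} [Field K] (E : Subfield K) (x : K) : x ∈ AdjS E x :=
  IntermediateField.mem_adjoin_simple_self E x

theorem le_AdjS {K : Type*} [Field K] (E : Subfield K) (x : K) : E ≤ AdjS E x := by
  intro z hz
  exact (IntermediateField.adjoin E {x}).algebraMap_mem ⟨z, hz⟩

theorem AdjS_le {K : Type*} [Field K] {E E' : Subfield K} {x : K} (h : E ≤ E') (hx : x ∈ E') :
    AdjS E x ≤ E' := by
  intro z hz
  have : z ∈ IntermediateField.adjoin E {x} := hz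
  rw [IntermediateField.mem_adjoin_simple_iff] at this
  obtain ⟨r, s, rfl⟩ := this
  have hmem : ∀ P : E[X], aeval x P ∈ E' := by
    intro P
    rw [aeval_eq_sum_range]
    refine E'.sum_mem fun i _ => ?_
    rw [Algebra.smul_def]
    exact E'.mul_mem (h (P.coeff i).2) (E'.pow_mem hx i)
  exact E'.div_mem (hmem r) (hmem s)

section

variable {p : ℕ} [Fact p.Prime] {K : Type*} [Field K] [CharP K p]

theorem mem_Kp {a : K} : a ∈ Kp p K ↔ ∃ b : K, b ^ p = a := by
  unfold Kp
  rw [RingHom.mem_fieldRange]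
  simp only [frobenius_def]

theorem pow_mem_Kp (z : K) : z ^ p ∈ Kp p K := mem_Kp.2 ⟨z, rfl⟩

theorem minpoly_eq {E : Subfield K} (hE : ∀ z : K, z ^ p ∈ E) {x : K} (hx : x ∉ E) :
    minpoly E x = X ^ p - C (⟨x ^ p, hE x⟩ : E) := by
  have hp : p.Prime := Fact.out
  have hirr : Irreducible (X ^ p - C (⟨x ^ p, hE x⟩ : E)) := by
    apply X_pow_sub_C_irreducible_of_prime hp
    intro b hb
    apply hx
    have h1 : (b : K) ^ p = x ^ p := by
      have := congrArg (fun t : E => (t : K)) hb
      simpa using this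
    have h2 : (b : K) = x := frobenius_inj K p h1
    rw [← h2]; exact b.2
  symm
  refine minpoly.eq_of_irreducible_of_monic hirr ?_ (monic_X_pow_sub_C _ hp.ne_zero)
  simp only [map_sub, map_pow, aeval_X, aeval_C]
  show x ^ p - x ^ p = 0
  ring

theorem isAlg {E : Subfield K} (hE : ∀ z : K, z ^ p ∈ E) (x : K) : IsIntegral E x := by
  have hp : p.Prime := Fact.out
  refine ⟨X ^ p - C (⟨x ^ p, hE x⟩ : E), monic_X_pow_sub_C _ hp.ne_zero, ?_⟩
  simp only [eval₂_sub, eval₂_X_pow, eval₂_C]
  show x ^ p - x ^ p = 0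
  ring

theorem mem_AdjS {E : Subfield K} (hE : ∀ z : K, z ^ p ∈ E) {x z : K} :
    z ∈ AdjS E x ↔ ∃ P : E[X], aeval x P = z := by
  have h1 : z ∈ AdjS E x ↔ z ∈ (IntermediateField.adjoin E {x}).toSubalgebra := Iff.rfl
  rw [h1, IntermediateField.adjoin_simple_toSubalgebra_of_isAlgebraic (isAlg hE x).isAlgebraic,
    Algebra.adjoin_singleton_eq_range_aeval]
  rfl

theorem mem_AdjS' {E : Subfield K} (hE : ∀ z : K, z ^ p ∈ E) {x z : K} :
    z ∈ AdjS E x ↔ ∃ P : E[X], P.natDegree < p ∧ aeval x P = z := by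
  have hp : p.Prime := Fact.out
  rw [mem_AdjS hE]
  constructor
  · rintro ⟨P, hP⟩
    set Q : E[X] := X ^ p - C (⟨x ^ p, hE x⟩ : E) with hQ
    have hQm : Q.Monic := monic_X_pow_sub_C _ hp.ne_zero
    refine ⟨P %ₘ Q, ?_, ?_⟩
    · have : Q.natDegree = p := natDegree_X_pow_sub_C
      have h2 := natDegree_modByMonic_lt P hQm (by
        intro h
        rw [h] at this
        simp at this
        exact hp.ne_zero this.symm)
      rwa [this] at h2
    · have h0 : aeval x Q = 0 := by
        simp only [hQ, map_sub, map_pow, aeval_X, aeval_C]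
        show x ^ p - x ^ p = 0
        ring
      rw [← hP]
      conv_rhs => rw [← modByMonic_add_div P Q]
      simp [h0]
  · rintro ⟨P, _, hP⟩
    exact ⟨P, hP⟩

/-- Linear independence of the powers of `x`. -/
theorem aeval_eq_zero {E : Subfield K} (hE : ∀ z : K, z ^ p ∈ E) {x : K} (hx : x ∉ E)
    {P : E[X]} (hP : P.natDegree < p) (h : aeval x P = 0) : P = 0 := by
  by_contra hP0
  have h1 := minpoly.degree_le_of_ne_zero E x hP0 h
  rw [minpoly_eq hE hx, degree_X_pow_sub_C (Fact.out : p.Prime).pos, degree_eq_natDegree hP0] at h1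
  have : p ≤ P.natDegree := by exact_mod_cast h1
  omega

theorem minpoly_dvd {E : Subfield K} (hE : ∀ z : K, z ^ p ∈ E) {x : K} (hx : x ∉ E)
    {P : E[X]} (h : aeval x P = 0) : (X ^ p - C (⟨x ^ p, hE x⟩ : E)) ∣ P := by
  rw [← minpoly_eq hE hx]
  exact minpoly.dvd E x h

/-- Derivation when `K = E(x)`. -/
theorem exists_deriv_of_top {E : Subfield K} (hE : ∀ z : K, z ^ p ∈ E) {x : K} (hx : x ∉ E)
    (htop : ∀ z : K, z ∈ AdjS E x) :
    ∃ D : Derivation ℤ K K, (∀ e ∈ E, D e = 0) ∧ D x = 1 := by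
  have hsurj : Function.Surjective (aeval x : E[X] →ₐ[E] K) := fun z => by
    obtain ⟨P, hP⟩ := (mem_AdjS hE).1 (htop z)
    exact ⟨P, hP⟩
  have hd : ∀ P : E[X], (aeval x : E[X] →ₐ[E] K) P = 0 →
      (aeval x : E[X] →ₐ[E] K) ((derivative' : Derivation E E[X] E[X]) P) = 0 := by
    intro P hP
    obtain ⟨Q, rfl⟩ := minpoly_dvd hE hx hP
    have h0 : aeval x (X ^ p - C (⟨x ^ p, hE x⟩ : E)) = 0 := by
      simp only [map_sub, map_pow, aeval_X, aeval_C]
      show x ^ p - x ^ p = 0
      ring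
    simp only [derivative'_apply, derivative_mul, derivative_sub, derivative_X_pow, derivative_C,
      map_add, map_mul, map_sub, h0]
    have hp0 : ((p : ℕ) : K) = 0 := CharP.cast_eq_zero K p
    simp [hp0]
  let D := Derivation.liftOfSurjective hsurj hd
  refine ⟨D.restrictScalars ℤ, ?_, ?_⟩
  · intro e he
    have : e = (aeval x : E[X] →ₐ[E] K) (C ⟨e, he⟩) := by
      rw [aeval_C]; rfl
    show D e = 0
    rw [this, Derivation.liftOfSurjective_apply]
    simp
  · have : x = (aeval x : E[X] →ₐ[E] K) X := by simp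
    show D x = 1
    conv_lhs => rw [this]
    rw [Derivation.liftOfSurjective_apply]
    simp

/-- Exchange: if `u ∈ E(z)` and `u ∉ E` then `z ∈ E(u)`. -/
theorem exchange {E : Subfield K} (hE : ∀ z : K, z ^ p ∈ E) {u z : K} (hu : u ∉ E)
    (h : u ∈ AdjS E z) : z ∈ AdjS E u := by
  have hp : p.Prime := Fact.out
  have hz : z ∉ E := fun hz => hu (AdjS_le le_rfl hz h)
  -- degree argument
  have hfz : Module.finrank E (IntermediateField.adjoin E {z}) = p := by
    rw [IntermediateField.adjoin.finrank (isAlg hE z), minpoly_eq hE hz]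
    exact natDegree_X_pow_sub_C
  have hfu : Module.finrank E (IntermediateField.adjoin E {u}) = p := by
    rw [IntermediateField.adjoin.finrank (isAlg hE u), minpoly_eq hE hu]
    exact natDegree_X_pow_sub_C
  have hle : IntermediateField.adjoin E {u} ≤ IntermediateField.adjoin E {z} := by
    rw [IntermediateField.adjoin_simple_le_iff]
    exact h
  have : FiniteDimensional E (IntermediateField.adjoin E {z}) :=
    IntermediateField.adjoin.finiteDimensional (isAlg hE z)
  have heq := IntermediateField.eq_of_le_of_finrank_eq hle (hfu.trans hfz.symm)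
  show z ∈ IntermediateField.adjoin E {u}
  rw [heq]
  exact IntermediateField.mem_adjoin_simple_self E z

/-- Existence of derivations. -/
theorem exists_deriv {E : Subfield K} (hE : ∀ z : K, z ^ p ∈ E) {x : K} (hx : x ∉ E) :
    ∃ D : Derivation ℤ K K, (∀ e ∈ E, D e = 0) ∧ D x = 1 := by
  obtain ⟨M, hEM, hM⟩ := zorn_le_nonempty₀ {S : Subfield K | x ∉ S} (by
    intro c hc hchain y hy
    refine ⟨sSup c, ?_, fun z hz => le_sSup hz⟩
    show x ∉ sSup c
    rw [Subfield.mem_sSup_of_directedOn ⟨y, hy⟩ hchain.directedOn]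
    rintro ⟨s, hs, hxs⟩
    exact hc hs hxs) E hx
  have hMp : ∀ z : K, z ^ p ∈ M := fun z => hEM (hE z)
  have hxM : x ∉ M := hM.1
  have htop : ∀ z : K, z ∈ AdjS M x := by
    intro z
    by_cases hz : z ∈ M
    · exact le_AdjS M x hz
    · have hx' : x ∈ AdjS M z := by
        by_contra hcon
        have := hM.2 (y := AdjS M z) hcon (le_AdjS M z)
        exact hz (this (self_mem_AdjS M z))
      exact exchange hMp hxM hx'
  obtain ⟨D, hD, hDx⟩ := exists_deriv_of_top hMp hxM htop
  exact ⟨D, fun e he => hD e (hEM he), hDx⟩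

/-- A derivation kills `p`-th powers. -/
theorem deriv_Kp (D : Derivation ℤ K K) {a : K} (ha : a ∈ Kp p K) : D a = 0 := by
  obtain ⟨b, rfl⟩ := mem_Kp.1 ha
  rw [Derivation.leibniz_pow]
  have hp0 : ((p : ℕ) : K) = 0 := CharP.cast_eq_zero K p
  simp [hp0]

/-- Formula for a derivation on a polynomial in `x` with coefficients killed by `D`. -/
theorem deriv_aeval {E : Subfield K} (D : Derivation ℤ K K) (hD : ∀ e ∈ E, D e = 0) (x : K)
    (P : E[X]) : D (aeval x P) = aeval x (derivative P) * D x := by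
  induction P using Polynomial.induction_on' with
  | add P Q hP hQ =>
    simp only [map_add, derivative_add, hP, hQ]
    ring
  | monomial n a =>
    rw [aeval_monomial, derivative_monomial, aeval_monomial, Derivation.leibniz,
      Derivation.leibniz_pow]
    have ha : D (algebraMap E K a) = 0 := hD _ a.2
    rw [ha]
    simp only [map_mul, map_natCast, smul_eq_mul, nsmul_eq_mul, mul_zero, add_zero]
    ring

/-- A derivation of `K` killing `E` and with `D x ∈ E(x)` preserves `E(x)`. -/
theorem deriv_mem {E : Subfield K} (hE : ∀ z : K, z ^ p ∈ E) (D : Derivation ℤ K K)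
    (hD : ∀ e ∈ E, D e = 0) {x : K} (hx : D x ∈ AdjS E x) {z : K} (hz : z ∈ AdjS E x) :
    D z ∈ AdjS E x := by
  obtain ⟨P, rfl⟩ := (mem_AdjS hE).1 hz
  rw [deriv_aeval D hD]
  exact (AdjS E x).mul_mem ((mem_AdjS hE).2 ⟨_, rfl⟩) hx

/-- A derivation of `K` killing `E` and `x` kills `E(x)`. -/
theorem deriv_zero {E : Subfield K} (hE : ∀ z : K, z ^ p ∈ E) (D : Derivation ℤ K K)
    (hD : ∀ e ∈ E, D e = 0) {x : K} (hx : D x = 0) {z : K} (hz : z ∈ AdjS E x) :
    D z = 0 := by
  obtain ⟨P, rfl⟩ := (mem_AdjS hE).1 hz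
  rw [deriv_aeval D hD, hx, mul_zero]

/-- If `D x = 1`, `D E = 0`, `z ∈ E(x)` and `D z = 0` then `z ∈ E`. -/
theorem mem_of_deriv_zero {E : Subfield K} (hE : ∀ z : K, z ^ p ∈ E) (D : Derivation ℤ K K)
    (hD : ∀ e ∈ E, D e = 0) {x : K} (hx : D x ≠ 0) {z : K} (hz : z ∈ AdjS E x)
    (hz0 : D z = 0) : z ∈ E := by
  by_contra hzE
  have hxz := exchange hE hzE hz
  exact hx (deriv_zero hE D hD hz0 hxz)

end

end Crest.Agent.S0010
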