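import Mathlib

set_option autoImplicit false
set_option linter.unusedSectionVars false
set_option linter.unusedSimpArgs false
set_option linter.unusedVariables false
set_option linter.unnecessarySimpa false

/-!
A version of the fundamental theorem of projective geometry for the projective space of a field
`K` over a subfield `F`, for maps that are multiplicative modulo scalars.
-/

namespace Crest.Agent.S0010

/-- `u, v` are linearly independent over the subfield `F`. -/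
def Ind2 {K : Type*} [Field K] (F : Subfield K) (u v : K) : Prop :=
  ∀ a ∈ F, ∀ b ∈ F, a * u + b * v = 0 → a = 0 ∧ b = 0

/-- `u, v, w` are linearly independent over the subfield `F`. -/
def Ind3 {K : Type*} [Field K] (F : Subfield K) (u v w : K) : Prop :=
  ∀ a ∈ F, ∀ b ∈ F, ∀ c ∈ F, a * u + b * v + c * w = 0 → a = 0 ∧ b = 0 ∧ c = 0

theorem ind2_iff {K : Type*} [Field K] (F : Subfield K) {u v : K} (hu : u ≠ 0) :
    Ind2 F u v ↔ v / u ∉ F := by
  constructor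
  · intro h hv
    have h1 := h (v / u) hv (-1) (F.neg_mem F.one_mem) (by field_simp; ring)
    exact absurd h1.2 (by norm_num)
  · intro h a ha b hb hab
    by_cases hb0 : b = 0
    · subst hb0
      refine ⟨?_, rfl⟩
      have : a * u = 0 := by linear_combination hab
      rcases mul_eq_zero.1 this with h' | h'
      · exact h'
      · exact absurd h' hu
    · exfalso
      apply h
      have : v / u = -(a / b) := by
        field_simp
        linear_combination hab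
      rw [this]
      exact F.neg_mem (F.div_mem ha hb)

theorem Ind2.symm {K : Type*} [Field K] {F : Subfield K} {u v : K} (h : Ind2 F u v) :
    Ind2 F v u := fun a ha b hb hab => by
  have := h b hb a ha (by linear_combination hab)
  exact ⟨this.2, this.1⟩

section
variable {K L : Type*} [Field K] [Field L] {F : Subfield K} {F' : Subfield L}

/-- The hypotheses of the fundamental theorem. -/
structure LineMap (F : Subfield K) (F' : Subfield L) (θ : K → L) : Prop where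
  ne_zero : ∀ u, u ≠ 0 → θ u ≠ 0
  mul : ∀ u v, u ≠ 0 → v ≠ 0 → ∃ c ∈ F', c ≠ 0 ∧ θ (u * v) = c * (θ u * θ v)
  mem_iff : ∀ u, u ≠ 0 → (u ∈ F ↔ θ u ∈ F')
  line : ∀ x v, x ∉ F → v ≠ 0 →
    ((∃ a ∈ F, ∃ b ∈ F, a ≠ 0 ∧ b ≠ 0 ∧ v = a * x + b) ↔
      (∃ a ∈ F', ∃ b ∈ F', a ≠ 0 ∧ b ≠ 0 ∧ θ v = a * θ x + b))
  surj : ∀ w : L, w ≠ 0 → ∃ u, u ≠ 0 ∧ ∃ c ∈ F', c ≠ 0 ∧ w = c * θ u

variable {θ : K → L}

/-- scalar equivalence -/
def Eqv (F' : Subfield L) (a b : L) : Prop := ∃ c ∈ F', c ≠ 0 ∧ a = c * b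

theorem Eqv.refl (F' : Subfield L) (a : L) : Eqv F' a a := ⟨1, F'.one_mem, one_ne_zero, by ring⟩

theorem Eqv.symm {a b : L} (h : Eqv F' a b) : Eqv F' b a := by
  obtain ⟨c, hc, hc0, rfl⟩ := h
  exact ⟨c⁻¹, F'.inv_mem hc, inv_ne_zero hc0, by field_simp⟩

theorem Eqv.trans {a b c : L} (h : Eqv F' a b) (h' : Eqv F' b c) : Eqv F' a c := by
  obtain ⟨x, hx, hx0, rfl⟩ := h
  obtain ⟨y, hy, hy0, rfl⟩ := h'
  exact ⟨x * y, F'.mul_mem hx hy, mul_ne_zero hx0 hy0, by ring⟩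

theorem Eqv.mul {a b c d : L} (h : Eqv F' a b) (h' : Eqv F' c d) : Eqv F' (a * c) (b * d) := by
  obtain ⟨x, hx, hx0, rfl⟩ := h
  obtain ⟨y, hy, hy0, rfl⟩ := h'
  exact ⟨x * y, F'.mul_mem hx hy, mul_ne_zero hx0 hy0, by ring⟩

theorem Eqv.div {a b c d : L} (h : Eqv F' a b) (h' : Eqv F' c d) : Eqv F' (a / c) (b / d) := by
  obtain ⟨x, hx, hx0, rfl⟩ := h
  obtain ⟨y, hy, hy0, rfl⟩ := h'
  refine ⟨x / y, F'.div_mem hx hy, div_ne_zero hx0 hy0, ?_⟩
  rw [mul_div_mul_comm]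

theorem Eqv.mem_iff {a b : L} (h : Eqv F' a b) : a ∈ F' ↔ b ∈ F' := by
  obtain ⟨x, hx, hx0, rfl⟩ := h
  constructor
  · intro h
    have := F'.mul_mem (F'.inv_mem hx) h
    rwa [← mul_assoc, inv_mul_cancel₀ hx0, one_mul] at this
  · intro h
    exact F'.mul_mem hx h

theorem eqv_of_div_mem {a b : L} (ha : a ≠ 0) (hb : b ≠ 0) (h : a / b ∈ F') : Eqv F' a b :=
  ⟨a / b, h, div_ne_zero ha hb, by field_simp⟩

namespace LineMap

theorem div (H : LineMap F F' θ) (u v : K) (hu : u ≠ 0) (hv : v ≠ 0) :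
    Eqv F' (θ (u / v)) (θ u / θ v) := by
  obtain ⟨c, hc, hc0, h⟩ := H.mul (u / v) v (div_ne_zero hu hv) hv
  rw [div_mul_cancel₀ _ hv] at h
  have hv' := H.ne_zero v hv
  refine ⟨c⁻¹, F'.inv_mem hc, inv_ne_zero hc0, ?_⟩
  rw [h]
  field_simp

theorem smul (H : LineMap F F' θ) (a u : K) (ha : a ∈ F) (ha0 : a ≠ 0) (hu : u ≠ 0) :
    Eqv F' (θ (a * u)) (θ u) := by
  obtain ⟨c, hc, hc0, h⟩ := H.mul a u ha0 hu
  refine ⟨c * θ a, F'.mul_mem hc ((H.mem_iff a ha0).1 ha), mul_ne_zero hc0 (H.ne_zero a ha0), ?_⟩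
  rw [h]; ring

theorem ind2 (H : LineMap F F' θ) {u v : K} (hu : u ≠ 0) (hv : v ≠ 0) :
    Ind2 F u v ↔ Ind2 F' (θ u) (θ v) := by
  rw [ind2_iff F hu, ind2_iff F' (H.ne_zero u hu), not_iff_not,
    H.mem_iff _ (div_ne_zero hv hu)]
  exact (H.div v u hv hu).mem_iff

/-- `w` is a proper combination of `u, v` iff its image is. -/
theorem comb_iff (H : LineMap F F' θ) {u v w : K} (hu : u ≠ 0) (hv : v ≠ 0) (hw : w ≠ 0)
    (huv : Ind2 F u v) :
    (∃ a ∈ F, ∃ b ∈ F, a ≠ 0 ∧ b ≠ 0 ∧ w = a * u + b * v) ↔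
      (∃ a ∈ F', ∃ b ∈ F', a ≠ 0 ∧ b ≠ 0 ∧ θ w = a * θ u + b * θ v) := by
  have hx : v / u ∉ F := (ind2_iff F hu).1 huv
  have h1 := H.line (v / u) (w / u) hx (div_ne_zero hw hu)
  have hu' := H.ne_zero u hu
  have hv' := H.ne_zero v hv
  have hw' := H.ne_zero w hw
  have e1 : (∃ a ∈ F, ∃ b ∈ F, a ≠ 0 ∧ b ≠ 0 ∧ w = a * u + b * v) ↔
      (∃ a ∈ F, ∃ b ∈ F, a ≠ 0 ∧ b ≠ 0 ∧ w / u = a * (v / u) + b) := by
    constructor
    · rintro ⟨a, ha, b, hb, ha0, hb0, h⟩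
      refine ⟨b, hb, a, ha, hb0, ha0, ?_⟩
      rw [h]; field_simp; ring
    · rintro ⟨a, ha, b, hb, ha0, hb0, h⟩
      refine ⟨b, hb, a, ha, hb0, ha0, ?_⟩
      field_simp at h
      rw [h]; ring
  rw [e1, h1]
  obtain ⟨c, hc, hc0, h2⟩ := H.div v u hv hu
  obtain ⟨d, hd, hd0, h3⟩ := H.div w u hw hu
  rw [h2, h3]
  constructor
  · rintro ⟨a, ha, b, hb, ha0, hb0, h⟩
    refine ⟨b / d, F'.div_mem hb hd, a * c / d, F'.div_mem (F'.mul_mem ha hc) hd,
      div_ne_zero hb0 hd0, div_ne_zero (mul_ne_zero ha0 hc0) hd0, ?_⟩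
    field_simp at h ⊢
    linear_combination h
  · rintro ⟨a, ha, b, hb, ha0, hb0, h⟩
    refine ⟨b * d / c, F'.div_mem (F'.mul_mem hb hd) hc, a * d, F'.mul_mem ha hd,
      div_ne_zero (mul_ne_zero hb0 hd0) hc0, mul_ne_zero ha0 hd0, ?_⟩
    rw [h]
    field_simp
    ring

theorem ind3 (H : LineMap F F' θ) {u v w : K} (hu : u ≠ 0) (hv : v ≠ 0) (hw : w ≠ 0)
    (h : Ind3 F u v w) : Ind3 F' (θ u) (θ v) (θ w) := by
  have hu' := H.ne_zero u hu
  have hv' := H.ne_zero v hv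
  have hw' := H.ne_zero w hw
  have huv : Ind2 F u v := fun a ha b hb hab => by
    have := h a ha b hb 0 F.zero_mem (by linear_combination hab)
    exact ⟨this.1, this.2.1⟩
  have huw : Ind2 F u w := fun a ha b hb hab => by
    have := h a ha 0 F.zero_mem b hb (by linear_combination hab)
    exact ⟨this.1, this.2.2⟩
  have hvw : Ind2 F v w := fun a ha b hb hab => by
    have := h 0 F.zero_mem a ha b hb (by linear_combination hab)
    exact ⟨this.2.1, this.2.2⟩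
  have huv' := (H.ind2 hu hv).1 huv
  have huw' := (H.ind2 hu hw).1 huw
  have hvw' := (H.ind2 hv hw).1 hvw
  intro a ha b hb c hc habc
  by_cases hc0 : c = 0
  · subst hc0
    have := huv' a ha b hb (by linear_combination habc)
    exact ⟨this.1, this.2, rfl⟩
  by_cases ha0 : a = 0
  · subst ha0
    have := hvw' b hb c hc (by linear_combination habc)
    exact ⟨rfl, this.1, this.2⟩
  by_cases hb0 : b = 0
  · subst hb0
    have := huw' a ha c hc (by linear_combination habc)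
    exact ⟨this.1, rfl, this.2⟩
  exfalso
  have : ∃ a ∈ F', ∃ b ∈ F', a ≠ 0 ∧ b ≠ 0 ∧ θ w = a * θ u + b * θ v := by
    refine ⟨-(a / c), F'.neg_mem (F'.div_mem ha hc), -(b / c), F'.neg_mem (F'.div_mem hb hc),
      neg_ne_zero.2 (div_ne_zero ha0 hc0), neg_ne_zero.2 (div_ne_zero hb0 hc0), ?_⟩
    field_simp
    linear_combination habc
  obtain ⟨a1, ha1, b1, hb1, ha10, hb10, h1⟩ := (H.comb_iff hu hv hw huv).2 this
  have := h a1 ha1 b1 hb1 (-1) (F.neg_mem F.one_mem) (by rw [h1]; ring)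
  exact ha10 this.1

/-- Existence of the normalised representative. -/
theorem exists_norm (H : LineMap F F' θ) (v : K) (hv : v ∉ F) :
    ∃ y : L, Eqv F' y (θ v) ∧ Eqv F' (θ 1 + y) (θ (1 + v)) := by
  have hv0 : v ≠ 0 := fun h => hv (h ▸ F.zero_mem)
  have hi : Ind2 F 1 v := (ind2_iff F one_ne_zero).2 (by simpa using hv)
  have h1v : (1 : K) + v ≠ 0 := by
    intro h
    apply hv
    have : v = -1 := by linear_combination h
    rw [this]; exact F.neg_mem F.one_mem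
  obtain ⟨a, ha, b, hb, ha0, hb0, h⟩ := (H.comb_iff one_ne_zero hv0 h1v hi).1
    ⟨1, F.one_mem, 1, F.one_mem, one_ne_zero, one_ne_zero, by ring⟩
  refine ⟨(b / a) * θ v, ⟨b / a, F'.div_mem hb ha, div_ne_zero hb0 ha0, rfl⟩, ?_⟩
  refine ⟨a⁻¹, F'.inv_mem ha, inv_ne_zero ha0, ?_⟩
  rw [h]
  field_simp

open Classical in
/-- The normalised map off `F`. -/
noncomputable def phi0 (H : LineMap F F' θ) (v : K) : L :=
  if hv : v ∈ F then 0 else (H.exists_norm v hv).choose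

theorem phi0_eqv (H : LineMap F F' θ) {v : K} (hv : v ∉ F) : Eqv F' (H.phi0 v) (θ v) := by
  unfold phi0
  rw [dif_neg hv]
  exact (H.exists_norm v hv).choose_spec.1

theorem phi0_norm (H : LineMap F F' θ) {v : K} (hv : v ∉ F) :
    Eqv F' (θ 1 + H.phi0 v) (θ (1 + v)) := by
  unfold phi0
  rw [dif_neg hv]
  exact (H.exists_norm v hv).choose_spec.2

theorem phi0_ne_zero (H : LineMap F F' θ) {v : K} (hv : v ∉ F) : H.phi0 v ≠ 0 := by
  obtain ⟨c, hc, hc0, h⟩ := H.phi0_eqv hv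
  rw [h]
  exact mul_ne_zero hc0 (H.ne_zero v (fun h => hv (h ▸ F.zero_mem)))

theorem ind3_eqv {u v w u' v' w' : L} (h : Ind3 F' u v w) (hu : Eqv F' u' u) (hv : Eqv F' v' v)
    (hw : Eqv F' w' w) : Ind3 F' u' v' w' := by
  obtain ⟨a, ha, ha0, rfl⟩ := hu
  obtain ⟨b, hb, hb0, rfl⟩ := hv
  obtain ⟨c, hc, hc0, rfl⟩ := hw
  intro x hx y hy z hz hxyz
  have := h (x * a) (F'.mul_mem hx ha) (y * b) (F'.mul_mem hy hb) (z * c) (F'.mul_mem hz hc)
    (by linear_combination hxyz)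
  simpa [ha0, hb0, hc0] using this

/-- Additivity for independent `1, u, v`. -/
theorem phi0_add (H : LineMap F F' θ) {u v : K} (h : Ind3 F 1 u v) :
    H.phi0 (u + v) = H.phi0 u + H.phi0 v := by
  have h1 : ∀ a ∈ F, a + u ≠ 0 := fun a ha h0 => by
    have := h a ha 1 F.one_mem 0 F.zero_mem (by linear_combination h0)
    exact one_ne_zero this.2.1
  have huF : u ∉ F := fun hu => h1 (-u) (F.neg_mem hu) (by ring)
  have hvF : v ∉ F := fun hv => by
    have := h (-v) (F.neg_mem hv) 0 F.zero_mem 1 F.one_mem (by ring)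
    exact one_ne_zero this.2.2
  have huvF : u + v ∉ F := fun hv => by
    have := h (-(u + v)) (F.neg_mem hv) 1 F.one_mem 1 F.one_mem (by ring)
    exact one_ne_zero this.2.2
  have hu0 : u ≠ 0 := fun h => huF (h ▸ F.zero_mem)
  have hv0 : v ≠ 0 := fun h => hvF (h ▸ F.zero_mem)
  have huv0 : u + v ≠ 0 := fun h => huvF (h ▸ F.zero_mem)
  have h1u0 : 1 + u ≠ 0 := h1 1 F.one_mem
  have h1v0 : 1 + v ≠ 0 := fun h0 => hvF (by
    have : v = -1 := by linear_combination h0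
    rw [this]; exact F.neg_mem F.one_mem)
  have hw0 : 1 + u + v ≠ 0 := fun h0 => by
    have := h 1 F.one_mem 1 F.one_mem 1 F.one_mem (by linear_combination h0)
    exact one_ne_zero this.1
  have i1 : Ind2 F (1 + u) v := fun a ha b hb hab => by
    have := h a ha a ha b hb (by linear_combination hab)
    exact ⟨this.1, this.2.2⟩
  have i2 : Ind2 F (1 + v) u := fun a ha b hb hab => by
    have := h a ha b hb a ha (by linear_combination hab)
    exact ⟨this.1, this.2.1⟩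
  have i3 : Ind2 F u v := fun a ha b hb hab => by
    have := h 0 F.zero_mem a ha b hb (by linear_combination hab)
    exact ⟨this.2.1, this.2.2⟩
  obtain ⟨a1, ha1, b1, hb1, ha10, hb10, e1⟩ := (H.comb_iff h1u0 hv0 hw0 i1).1
    ⟨1, F.one_mem, 1, F.one_mem, one_ne_zero, one_ne_zero, by ring⟩
  obtain ⟨a2, ha2, b2, hb2, ha20, hb20, e2⟩ := (H.comb_iff h1v0 hu0 hw0 i2).1
    ⟨1, F.one_mem, 1, F.one_mem, one_ne_zero, one_ne_zero, by ring⟩
  obtain ⟨a3, ha3, b3, hb3, ha30, hb30, e3⟩ := (H.comb_iff hu0 hv0 huv0 i3).1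
    ⟨1, F.one_mem, 1, F.one_mem, one_ne_zero, one_ne_zero, by ring⟩
  -- the normalisations
  obtain ⟨c1, hc1, hc10, n1⟩ := H.phi0_norm huF
  obtain ⟨c2, hc2, hc20, n2⟩ := H.phi0_norm hvF
  obtain ⟨c3, hc3, hc30, n3⟩ := H.phi0_norm huvF
  obtain ⟨d1, hd1, hd10, m1⟩ := H.phi0_eqv huF
  obtain ⟨d2, hd2, hd20, m2⟩ := H.phi0_eqv hvF
  obtain ⟨d3, hd3, hd30, m3⟩ := H.phi0_eqv huvF
  have i := ind3_eqv (H.ind3 one_ne_zero hu0 hv0 h) (Eqv.refl F' _) (H.phi0_eqv huF)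
    (H.phi0_eqv hvF)
  have ew : (1 : K) + (u + v) = 1 + u + v := by ring
  rw [ew] at n3
  have hθu : θ u = d1⁻¹ * H.phi0 u := by rw [m1]; field_simp
  have hθv : θ v = d2⁻¹ * H.phi0 v := by rw [m2]; field_simp
  have hθ1u : θ (1 + u) = c1⁻¹ * (θ 1 + H.phi0 u) := by rw [n1]; field_simp
  have hθ1v : θ (1 + v) = c2⁻¹ * (θ 1 + H.phi0 v) := by rw [n2]; field_simp
  rw [hθ1u, hθv] at e1
  rw [hθ1v, hθu] at e2
  rw [hθu, hθv] at e3
  have hinv : ∀ {x : L}, x ∈ F' → x⁻¹ ∈ F' := fun hx => F'.inv_mem hx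
  -- compare e1 and e2
  have k1 := i (a1 * c1⁻¹ - a2 * c2⁻¹) (F'.sub_mem (F'.mul_mem ha1 (hinv hc1)) (F'.mul_mem ha2 (hinv hc2)))
    (a1 * c1⁻¹ - b2 * d1⁻¹) (F'.sub_mem (F'.mul_mem ha1 (hinv hc1)) (F'.mul_mem hb2 (hinv hd1)))
    (b1 * d2⁻¹ - a2 * c2⁻¹) (F'.sub_mem (F'.mul_mem hb1 (hinv hd2)) (F'.mul_mem ha2 (hinv hc2)))
    (by linear_combination e2 - e1)
  set t := a1 * c1⁻¹ with ht
  have ht0 : t ≠ 0 := mul_ne_zero ha10 (inv_ne_zero hc10)
  have htF : t ∈ F' := F'.mul_mem ha1 (hinv hc1)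
  have k2 : b1 * d2⁻¹ = t := by linear_combination k1.2.2 - k1.1
  have e4 : θ (1 + u + v) = t * (θ 1 + H.phi0 u + H.phi0 v) := by
    rw [e1]
    linear_combination (H.phi0 v) * k2
  rw [e4, m3, e3] at n3
  have k3 := i (1 - c3 * t) (F'.sub_mem F'.one_mem (F'.mul_mem hc3 htF))
    (d3 * (a3 * d1⁻¹) - c3 * t) (F'.sub_mem (F'.mul_mem hd3 (F'.mul_mem ha3 (hinv hd1))) (F'.mul_mem hc3 htF))
    (d3 * (b3 * d2⁻¹) - c3 * t) (F'.sub_mem (F'.mul_mem hd3 (F'.mul_mem hb3 (hinv hd2))) (F'.mul_mem hc3 htF))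
    (by linear_combination n3)
  rw [m3, e3]
  linear_combination (H.phi0 u) * k3.2.1 + (H.phi0 v) * k3.2.2 - (H.phi0 u + H.phi0 v) * k3.1


theorem ind3_of {u v : K} (hu : u ∉ F) (hv : ∀ a ∈ F, ∀ b ∈ F, v ≠ a + b * u) : Ind3 F 1 u v := by
  intro a ha b hb c hc habc
  by_cases hc0 : c = 0
  · subst hc0
    have := (ind2_iff F (u := (1 : K)) (v := u) one_ne_zero).2 (by simpa using hu) a ha b hb
      (by linear_combination habc)
    exact ⟨this.1, this.2, rfl⟩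
  · exfalso
    apply hv (-(a / c)) (F.neg_mem (F.div_mem ha hc)) (-(b / c)) (F.neg_mem (F.div_mem hb hc))
    field_simp
    linear_combination habc

/-- `u` is outside the span of `1` and `v`. -/
def Out (F : Subfield K) (v u : K) : Prop := ∀ a ∈ F, ∀ b ∈ F, u ≠ a + b * v

theorem Out.not_mem {v u : K} (h : Out F v u) : u ∉ F := fun hu =>
  h u hu 0 F.zero_mem (by ring)

theorem phi0_wd (H : LineMap F F' θ) (hdim : ∀ x y z : K, ∃ u : K, ∀ a ∈ F, ∀ b ∈ F, ∀ c ∈ F,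
    u ≠ a * x + b * y + c * z) {v u₁ u₂ : K} (h1 : Out F v u₁) (h2 : Out F v u₂) :
    H.phi0 (v + u₁) - H.phi0 u₁ = H.phi0 (v + u₂) - H.phi0 u₂ := by
  by_cases hv : v ∈ F
  · have key : ∀ a b : K, a ∉ F → Out F a b →
        H.phi0 (v + a) - H.phi0 a = H.phi0 (v + b) - H.phi0 b := by
      intro a b ha hab
      have hb : b ∉ F := hab.not_mem
      have hva : v + a ∉ F := fun h => ha (by
        have := F.sub_mem h hv
        simpa using this)
      have hvb : v + b ∉ F := fun h => hb (by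
        have := F.sub_mem h hv
        simpa using this)
      have i1 : Ind3 F 1 (v + a) b := ind3_of hva (fun x hx y hy h => by
        apply hab (x + y * v) (F.add_mem hx (F.mul_mem hy hv)) y hy
        rw [h]; ring)
      have i2 : Ind3 F 1 a (v + b) := ind3_of ha (fun x hx y hy h => by
        apply hab (x - v) (F.sub_mem hx hv) y hy
        linear_combination h)
      have e1 := H.phi0_add i1
      have e2 := H.phi0_add i2
      have e3 : v + a + b = a + (v + b) := by ring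
      rw [e3] at e1
      linear_combination e2 - e1
    obtain ⟨u₃, h3⟩ := hdim 1 u₁ u₂
    have h13 : Out F u₁ u₃ := fun a ha b hb h => h3 a ha b hb 0 F.zero_mem (by rw [h]; ring)
    have h23 : Out F u₂ u₃ := fun a ha b hb h => h3 a ha 0 F.zero_mem b hb (by rw [h]; ring)
    rw [key u₁ u₃ h1.not_mem h13, key u₂ u₃ h2.not_mem h23]
  · have i1 : Ind3 F 1 v u₁ := ind3_of hv h1
    have i2 : Ind3 F 1 v u₂ := ind3_of hv h2
    rw [H.phi0_add i1, H.phi0_add i2]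
    ring

section ext

variable (H : LineMap F F' θ) (hdim : ∀ x y z : K, ∃ u : K, ∀ a ∈ F, ∀ b ∈ F, ∀ c ∈ F,
    u ≠ a * x + b * y + c * z)

include hdim in
theorem exists_out (v : K) : ∃ u, Out F v u := by
  obtain ⟨u, hu⟩ := hdim 1 v 0
  exact ⟨u, fun a ha b hb h => hu a ha b hb 0 F.zero_mem (by rw [h]; ring)⟩

/-- The extension of `phi0` to all of `K`. -/
noncomputable def phi (v : K) : L :=
  H.phi0 (v + (exists_out hdim v).choose) - H.phi0 (exists_out hdim v).choose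

theorem phi_eq {v u : K} (hu : Out F v u) : H.phi hdim v = H.phi0 (v + u) - H.phi0 u :=
  H.phi0_wd hdim (exists_out hdim v).choose_spec hu

theorem phi_add (v w : K) : H.phi hdim (v + w) = H.phi hdim v + H.phi hdim w := by
  obtain ⟨u, hu⟩ := hdim 1 v w
  have h1 : Out F (v + w) u := fun a ha b hb h => hu a ha b hb b hb (by rw [h]; ring)
  have h2 : Out F v u := fun a ha b hb h => hu a ha b hb 0 F.zero_mem (by rw [h]; ring)
  have h3 : Out F w (v + u) := fun a ha b hb h => hu a ha (-1) (F.neg_mem F.one_mem) b hb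
    (by linear_combination h)
  rw [H.phi_eq hdim h1, H.phi_eq hdim h2, H.phi_eq hdim h3]
  have : v + w + u = w + (v + u) := by ring
  rw [this]; ring

theorem phi_eqv {v : K} (hv0 : v ≠ 0) : Eqv F' (H.phi hdim v) (θ v) := by
  by_cases hv : v ∈ F
  · obtain ⟨u₁, hu₁⟩ := exists_out hdim v
    obtain ⟨u₂, hu₂⟩ := hdim 1 v u₁
    have hu₂' : Out F v u₂ := fun a ha b hb h => hu₂ a ha b hb 0 F.zero_mem (by rw [h]; ring)
    have key : ∀ u, Out F v u → ∃ a ∈ F', ∃ b ∈ F', a ≠ 0 ∧ H.phi hdim v = a * θ v + b * θ u := by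
      intro u hu
      have huF := hu.not_mem
      have hu0 : u ≠ 0 := fun h => huF (h ▸ F.zero_mem)
      have hvu : v + u ∉ F := fun h => huF (by
        have := F.sub_mem h hv
        simpa using this)
      have hvu0 : v + u ≠ 0 := fun h => hvu (h ▸ F.zero_mem)
      have i : Ind2 F v u := (ind2_iff F hv0).2 (fun h => huF (by
        have := F.mul_mem h hv
        rwa [div_mul_cancel₀ _ hv0] at this))
      obtain ⟨a, ha, b, hb, ha0, hb0, e⟩ := (H.comb_iff hv0 hu0 hvu0 i).1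
        ⟨1, F.one_mem, 1, F.one_mem, one_ne_zero, one_ne_zero, by ring⟩
      obtain ⟨c, hc, hc0, e1⟩ := H.phi0_eqv hvu
      obtain ⟨d, hd, hd0, e2⟩ := H.phi0_eqv huF
      refine ⟨c * a, F'.mul_mem hc ha, c * b - d, F'.sub_mem (F'.mul_mem hc hb) hd,
        mul_ne_zero hc0 ha0, ?_⟩
      rw [H.phi_eq hdim hu, e1, e2, e]
      ring
    obtain ⟨a1, ha1, b1, hb1, ha10, e1⟩ := key u₁ hu₁
    obtain ⟨a2, ha2, b2, hb2, ha20, e2⟩ := key u₂ hu₂'
    have hu₁0 : u₁ ≠ 0 := fun h => hu₁.not_mem (h ▸ F.zero_mem)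
    have hu₂0 : u₂ ≠ 0 := fun h => hu₂'.not_mem (h ▸ F.zero_mem)
    have i : Ind3 F v u₁ u₂ := by
      have i0 : Ind3 F 1 u₁ u₂ := ind3_of hu₁.not_mem (fun a ha b hb h => hu₂ a ha 0 F.zero_mem b hb
        (by rw [h]; ring))
      intro a ha b hb c hc habc
      have := i0 (a * v) (F.mul_mem ha hv) b hb c hc (by linear_combination habc)
      refine ⟨?_, this.2⟩
      rcases mul_eq_zero.1 this.1 with h | h
      · exact h
      · exact absurd h hv0
    have := (H.ind3 hv0 hu₁0 hu₂0 i) (a1 - a2) (F'.sub_mem ha1 ha2) b1 hb1 (-b2) (F'.neg_mem hb2)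
      (by linear_combination e2 - e1)
    refine ⟨a1, ha1, ha10, ?_⟩
    rw [e1, this.2.1]; ring
  · obtain ⟨u, hu⟩ := exists_out hdim v
    have : H.phi hdim v = H.phi0 v := by
      rw [H.phi_eq hdim hu, H.phi0_add (ind3_of hv hu)]
      ring
    rw [this]
    exact H.phi0_eqv hv

theorem phi_ne_zero {v : K} (hv0 : v ≠ 0) : H.phi hdim v ≠ 0 := by
  obtain ⟨c, hc, hc0, e⟩ := H.phi_eqv hdim hv0
  rw [e]
  exact mul_ne_zero hc0 (H.ne_zero v hv0)

include H hdim in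
/-- The ring isomorphism. -/
theorem exists_ringEquiv : ∃ α : K ≃+* L, ∀ u, u ≠ 0 → Eqv F' (α u) (θ u) := by
  have h10 : H.phi hdim 1 ≠ 0 := H.phi_ne_zero hdim one_ne_zero
  have hθ1 : θ 1 ∈ F' := (H.mem_iff 1 one_ne_zero).1 F.one_mem
  have h1F : H.phi hdim 1 ∈ F' := (H.phi_eqv hdim one_ne_zero).mem_iff.2 hθ1
  let ψ : K → L := fun v => H.phi hdim v / H.phi hdim 1
  have ψadd : ∀ v w, ψ (v + w) = ψ v + ψ w := fun v w => by
    simp only [ψ]; rw [H.phi_add hdim]; ring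
  have ψ1 : ψ 1 = 1 := div_self h10
  have ψeqv : ∀ {v : K}, v ≠ 0 → Eqv F' (ψ v) (θ v) := fun {v} hv => by
    refine Eqv.trans ?_ (H.phi_eqv hdim hv)
    exact ⟨(H.phi hdim 1)⁻¹, F'.inv_mem h1F, inv_ne_zero h10, by simp only [ψ]; ring⟩
  have ψ0 : ψ 0 = 0 := by
    have := ψadd 0 0
    simp only [add_zero] at this
    linear_combination -this
  have ψne : ∀ {v : K}, v ≠ 0 → ψ v ≠ 0 := fun {v} hv => by
    obtain ⟨c, hc, hc0, e⟩ := ψeqv hv
    rw [e]
    exact mul_ne_zero hc0 (H.ne_zero v hv)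
  have ψneg : ∀ v, ψ (-v) = - ψ v := fun v => by
    have := ψadd v (-v)
    rw [add_neg_cancel, ψ0] at this
    linear_combination -this
  -- multiplicativity
  have hlam : ∀ a b : K, a ≠ 0 → b ≠ 0 → ∃ c ∈ F', c ≠ 0 ∧ ψ (a * b) = c * (ψ a * ψ b) := by
    intro a b ha hb
    have h1 : Eqv F' (θ (a * b)) (θ a * θ b) := H.mul a b ha hb
    exact (ψeqv (mul_ne_zero ha hb)).trans (h1.trans ((ψeqv ha).mul (ψeqv hb)).symm)
  have ψind : ∀ {u v : K}, u ≠ 0 → v ≠ 0 → Ind2 F u v → Ind2 F' (ψ u) (ψ v) := by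
    intro u v hu hv h
    have h1 := (H.ind2 hu hv).1 h
    rw [ind2_iff F' (H.ne_zero u hu)] at h1
    rw [ind2_iff F' (ψne hu)]
    intro h2
    apply h1
    exact ((ψeqv hv).div (ψeqv hu)).mem_iff.1 h2
  have key : ∀ a b₁ b₂ : K, a ≠ 0 → b₁ ≠ 0 → b₂ ≠ 0 → Ind2 F b₁ b₂ →
      ψ (a * b₂) = ψ a * ψ b₂ → ψ (a * b₁) = ψ a * ψ b₁ := by
    intro a b₁ b₂ ha h1 h2 hi he
    have hs : b₁ + b₂ ≠ 0 := fun h => by
      have := hi 1 F.one_mem 1 F.one_mem (by linear_combination h)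
      exact one_ne_zero this.1
    obtain ⟨c1, hc1, hc10, e1⟩ := hlam a b₁ ha h1
    obtain ⟨c3, hc3, hc30, e3⟩ := hlam a (b₁ + b₂) ha hs
    rw [mul_add, ψadd (a * b₁) (a * b₂), ψadd b₁ b₂, e1, he] at e3
    have := ψind h1 h2 hi (c1 - c3) (F'.sub_mem hc1 hc3) (1 - c3) (F'.sub_mem F'.one_mem hc3) (by
      apply mul_left_cancel₀ (ψne ha)
      linear_combination e3)
    have hc : c1 = 1 := by linear_combination this.1 - this.2
    rw [e1, hc, one_mul]
  obtain ⟨x, hx⟩ := exists_out hdim 1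
  have hxF := hx.not_mem
  have hx0 : x ≠ 0 := fun h => hxF (h ▸ F.zero_mem)
  have ψmul0 : ∀ a b : K, a ≠ 0 → b ≠ 0 → ψ (a * b) = ψ a * ψ b := by
    intro a b ha hb
    have hone : ψ (a * 1) = ψ a * ψ 1 := by rw [ψ1]; simp
    have hnF : ∀ b : K, b ∉ F → ψ (a * b) = ψ a * ψ b := by
      intro b hb
      have hb0 : b ≠ 0 := fun h => hb (h ▸ F.zero_mem)
      refine key a b 1 ha hb0 one_ne_zero ?_ hone
      exact ((ind2_iff F one_ne_zero).2 (by simpa using hb)).symm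
    by_cases hbF : b ∈ F
    · refine key a b x ha hb hx0 ?_ (hnF x hxF)
      refine (ind2_iff F hb).2 (fun h => hxF ?_)
      have := F.mul_mem h hbF
      rwa [div_mul_cancel₀ _ hb] at this
    · exact hnF b hbF
  have ψmul : ∀ a b : K, ψ (a * b) = ψ a * ψ b := by
    intro a b
    by_cases ha : a = 0
    · subst ha; simp [ψ0]
    by_cases hb : b = 0
    · subst hb; simp [ψ0]
    exact ψmul0 a b ha hb
  let f : K →+* L :=
    { toFun := ψ
      map_one' := ψ1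
      map_mul' := ψmul
      map_zero' := ψ0
      map_add' := ψadd }
  have finj : Function.Injective f := f.injective
  have fmem : ∀ {a : K}, a ∈ F → f a ∈ F' := by
    intro a ha
    by_cases ha0 : a = 0
    · subst ha0; simpa using F'.zero_mem
    · exact (ψeqv ha0).mem_iff.2 ((H.mem_iff a ha0).1 ha)
  have fF : ∀ μ ∈ F', μ ≠ 0 → ∃ a, f a = μ := by
    intro μ hμ hμ0
    have hw0 : f x + μ ≠ 0 := by
      intro h
      have : f x ∈ F' := by
        have e : f x = -μ := by linear_combination h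
        rw [e]; exact F'.neg_mem hμ
      exact hxF ((H.mem_iff x hx0).2 ((ψeqv hx0).mem_iff.1 this))
    obtain ⟨z, hz0, c, hc, hc0, hz⟩ := H.surj _ hw0
    obtain ⟨d, hd, hd0, hd1⟩ := ψeqv hz0
    obtain ⟨g, hg, hg0, hg1⟩ := ψeqv hx0
    have hθz : θ z = (c⁻¹ * g) * θ x + c⁻¹ * μ := by
      have hfx : f x = g * θ x := hg1
      rw [hfx] at hz
      field_simp
      linear_combination -hz
    obtain ⟨a, ha, b, hb, ha0, hb0, hzab⟩ := (H.line x z hxF hz0).2
      ⟨c⁻¹ * g, F'.mul_mem (F'.inv_mem hc) hg, c⁻¹ * μ, F'.mul_mem (F'.inv_mem hc) hμ,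
        mul_ne_zero (inv_ne_zero hc0) hg0, mul_ne_zero (inv_ne_zero hc0) hμ0, hθz⟩
    have hfz : f z = f a * f x + f b := by rw [hzab, map_add, map_mul]
    have hfz' : f z = d * c⁻¹ * (f x + μ) := by
      have : f z = d * θ z := hd1
      rw [this, hz]; field_simp
    have hi : Ind2 F' (f 1) (f x) := ψind one_ne_zero hx0
      ((ind2_iff F one_ne_zero).2 (by simpa using hxF))
    have hdc : d * c⁻¹ ∈ F' := F'.mul_mem hd (F'.inv_mem hc)
    have := hi (f b - d * c⁻¹ * μ) (F'.sub_mem (fmem hb) (F'.mul_mem hdc hμ))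
      (f a - d * c⁻¹) (F'.sub_mem (fmem ha) hdc) (by
        rw [map_one]
        linear_combination hfz' - hfz)
    have hfa : f a ≠ 0 := fun h => ha0 (finj (by rw [h, map_zero]))
    refine ⟨b / a, ?_⟩
    rw [map_div₀]
    rw [div_eq_iff hfa]
    linear_combination this.1 - μ * this.2
  have fsurj : Function.Surjective f := by
    intro w
    by_cases hw : w = 0
    · exact ⟨0, by rw [hw, map_zero]⟩
    obtain ⟨u, hu0, c, hc, hc0, e⟩ := H.surj w hw
    obtain ⟨d, hd, hd0, e'⟩ := ψeqv hu0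
    obtain ⟨a, ha⟩ := fF (c / d) (F'.div_mem hc hd) (div_ne_zero hc0 hd0)
    refine ⟨a * u, ?_⟩
    have : f u = d * θ u := e'
    rw [map_mul, ha, this, e]
    field_simp
  exact ⟨RingEquiv.ofBijective f ⟨finj, fsurj⟩, fun u hu => ψeqv hu⟩

end ext

end LineMap

end

end Crest.Agent.S0010
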