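import Crest.Agent.S0010aux.Types
import Crest.Agent.S0010aux.Proj

set_option autoImplicit false
set_option linter.unusedSectionVars false
set_option linter.unusedSimpArgs false
set_option linter.unusedVariables false
set_option linter.unnecessarySimpa false

open Polynomial

/-!
From dependence-preserving maps to line maps.
-/

namespace Crest.Agent.S0010

section

variable {p : ℕ} [Fact p.Prime] {K L : Type*} [Field K] [CharP K p] [Field L] [CharP L p]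

/-- A choice of representatives of a homomorphism `K^*/K^{*p} → L^*/L^{*p}` which preserves
the dependence relation. -/
structure DepMap (p : ℕ) [Fact p.Prime] {K L : Type*} [Field K] [CharP K p] [Field L] [CharP L p]
    (θ : K → L) : Prop where
  ne_zero : ∀ u, u ≠ 0 → θ u ≠ 0
  mul : ∀ u v, u ≠ 0 → v ≠ 0 → Eqv (Kp p L) (θ (u * v)) (θ u * θ v)
  mem_iff : ∀ u, u ≠ 0 → (u ∈ Kp p K ↔ θ u ∈ Kp p L)
  adj : ∀ u v, u ≠ 0 → v ≠ 0 → v ∈ Ad p u → θ v ∈ Ad p (θ u)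

/-- Mutually inverse dependence maps. -/
structure DepIso (p : ℕ) [Fact p.Prime] {K L : Type*} [Field K] [CharP K p] [Field L] [CharP L p]
    (θ : K → L) (θ' : L → K) : Prop where
  fwd : DepMap p θ
  bwd : DepMap p θ'
  left : ∀ u, u ≠ 0 → Eqv (Kp p K) (θ' (θ u)) u
  right : ∀ w, w ≠ 0 → Eqv (Kp p L) (θ (θ' w)) w

theorem DepIso.symm {θ : K → L} {θ' : L → K} (h : DepIso p θ θ') : DepIso p θ' θ :=
  ⟨h.bwd, h.fwd, h.right, h.left⟩

theorem Eqv.ne_zero {F' : Subfield L} {a b : L} (h : Eqv F' a b) (hb : b ≠ 0) : a ≠ 0 := by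
  obtain ⟨c, hc, hc0, rfl⟩ := h
  exact mul_ne_zero hc0 hb

/-- `Ad` depends only on the class. -/
theorem Ad_eqv {a b : K} (h : Eqv (Kp p K) a b) : Ad p a = Ad p b := by
  obtain ⟨c, hc, hc0, rfl⟩ := h
  apply le_antisymm
  · apply Ad_le (Kp_le_Ad _)
    exact (Ad p b).mul_mem (Kp_le_Ad b hc) (self_mem_Ad b)
  · apply Ad_le (Kp_le_Ad _)
    have h1 := (Ad p (c * b)).mul_mem (Kp_le_Ad (c * b) ((Kp p K).inv_mem hc)) (self_mem_Ad (c * b))
    rwa [← mul_assoc, inv_mul_cancel₀ hc0, one_mul] at h1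

theorem Eqv.mem_Ad {a b x : K} (h : Eqv (Kp p K) a b) : a ∈ Ad p x ↔ b ∈ Ad p x := by
  obtain ⟨c, hc, hc0, rfl⟩ := h
  constructor
  · intro h1
    have h2 := (Ad p x).mul_mem (Kp_le_Ad x ((Kp p K).inv_mem hc)) h1
    rwa [← mul_assoc, inv_mul_cancel₀ hc0, one_mul] at h2
  · intro h1
    exact (Ad p x).mul_mem (Kp_le_Ad x hc) h1

theorem Eqv.pow {F' : Subfield L} {a b : L} (h : Eqv F' a b) (n : ℕ) : Eqv F' (a ^ n) (b ^ n) := by
  obtain ⟨c, hc, hc0, rfl⟩ := h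
  exact ⟨c ^ n, F'.pow_mem hc n, pow_ne_zero _ hc0, by ring⟩

theorem Ty_eqv_right {s : ℕ} {x f g : K} (h : Eqv (Kp p K) f g) (ht : Ty p s x f) : Ty p s x g := by
  obtain ⟨c, hc, hc0, rfl⟩ := h
  obtain ⟨a, ha, b, hb, ha0, hb0, e⟩ := ht
  have hcs : c ^ s ≠ 0 := pow_ne_zero _ hc0
  refine ⟨a / c ^ s, (Kp p K).div_mem ha ((Kp p K).pow_mem hc s), b / c ^ s,
    (Kp p K).div_mem hb ((Kp p K).pow_mem hc s), div_ne_zero ha0 hcs, div_ne_zero hb0 hcs, ?_⟩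
  rw [mul_pow] at e
  field_simp
  linear_combination e

theorem Ty_eqv_left {s : ℕ} {x y f : K} (h : Eqv (Kp p K) x y) (ht : Ty p s x f) : Ty p s y f := by
  obtain ⟨c, hc, hc0, rfl⟩ := h
  obtain ⟨a, ha, b, hb, ha0, hb0, e⟩ := ht
  have hcs : c ^ s ≠ 0 := pow_ne_zero _ hc0
  refine ⟨a * c ^ s, (Kp p K).mul_mem ha ((Kp p K).pow_mem hc s), b, hb, mul_ne_zero ha0 hcs, hb0, ?_⟩
  rw [e]; ring

namespace DepMap

variable {θ : K → L}

theorem div (H : DepMap p θ) (u v : K) (hu : u ≠ 0) (hv : v ≠ 0) :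
    Eqv (Kp p L) (θ (u / v)) (θ u / θ v) := by
  obtain ⟨c, hc, hc0, h⟩ := H.mul (u / v) v (div_ne_zero hu hv) hv
  rw [div_mul_cancel₀ _ hv] at h
  have hv' := H.ne_zero v hv
  refine ⟨c⁻¹, (Kp p L).inv_mem hc, inv_ne_zero hc0, ?_⟩
  rw [h]
  field_simp

theorem eqv (H : DepMap p θ) {u v : K} (hv : v ≠ 0) (h : Eqv (Kp p K) u v) :
    Eqv (Kp p L) (θ u) (θ v) := by
  have hu := h.ne_zero hv
  obtain ⟨c, hc, hc0, rfl⟩ := h
  obtain ⟨d, hd, hd0, h1⟩ := H.mul c v hc0 hv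
  refine ⟨d * θ c, (Kp p L).mul_mem hd ((H.mem_iff c hc0).1 hc), mul_ne_zero hd0 (H.ne_zero c hc0), ?_⟩
  rw [h1]; ring

theorem one_mem (H : DepMap p θ) : θ 1 ∈ Kp p L := (H.mem_iff 1 one_ne_zero).1 (Kp p K).one_mem

theorem pow (H : DepMap p θ) {u : K} (hu : u ≠ 0) (n : ℕ) : Eqv (Kp p L) (θ (u ^ n)) (θ u ^ n) := by
  induction n with
  | zero =>
    rw [pow_zero, pow_zero]
    exact ⟨θ 1, H.one_mem, H.ne_zero 1 one_ne_zero, by ring⟩
  | succ n ih =>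
    rw [pow_succ, pow_succ]
    exact (H.mul _ _ (pow_ne_zero _ hu) hu).trans (ih.mul (Eqv.refl _ _))

end DepMap

/-- `a x + b` is not a multiple of a power of `x`. -/
theorem not_pow {x a b : K} (hx : x ∉ Kp p K) (ha : a ∈ Kp p K) (hb : b ∈ Kp p K) (ha0 : a ≠ 0)
    (hb0 : b ≠ 0) (i : ℕ) (e : K) (he : e ∈ Kp p K) : a * x + b ≠ e * x ^ i := by
  intro h
  obtain ⟨D, hD, hDx⟩ := exists_deriv (E := Kp p K) hKp hx
  have h1 : D (a * x + b) = D (e * x ^ i) := by rw [h]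
  rw [map_add, Derivation.leibniz, Derivation.leibniz, hD a ha, hD b hb, hD e he,
    Derivation.leibniz_pow, hDx] at h1
  simp only [smul_eq_mul, nsmul_eq_mul, mul_one, mul_zero, add_zero] at h1
  -- a = e * (i * x^(i-1))
  have h2 : a * x = i * (a * x + b) := by
    rw [h]
    cases i with
    | zero =>
      simp only [Nat.cast_zero, zero_mul, mul_zero] at h1
      rw [h1]; simp
    | succ n =>
      simp only [Nat.add_sub_cancel] at h1
      linear_combination x * h1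
  have hi : (1 - (i : K)) = 0 := by
    by_contra hne
    apply hx
    have : x = (i * b) / ((1 - (i : K)) * a) := by
      rw [eq_div_iff (mul_ne_zero hne ha0)]
      linear_combination h2
    rw [this]
    have hiF : (i : K) ∈ Kp p K := natCast_mem _ i
    exact (Kp p K).div_mem ((Kp p K).mul_mem hiF hb)
      ((Kp p K).mul_mem ((Kp p K).sub_mem (Kp p K).one_mem hiF) ha)
  have : b = 0 := by linear_combination (a * x + b) * hi - h2
  exact hb0 this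

namespace DepIso

variable {θ : K → L} {θ' : L → K}

theorem adj_iff (H : DepIso p θ θ') {u v : K} (hu : u ≠ 0) (hv : v ≠ 0) :
    v ∈ Ad p u ↔ θ v ∈ Ad p (θ u) := by
  constructor
  · exact H.fwd.adj u v hu hv
  · intro h
    have h1 := H.bwd.adj _ _ (H.fwd.ne_zero u hu) (H.fwd.ne_zero v hv) h
    rw [Ad_eqv (H.left u hu)] at h1
    exact (H.left v hv).mem_Ad.1 h1

/-- The first step: line points over independent `x, y` have images of a common type. -/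
theorem step1 (H : DepIso p θ θ') {x y f g : K} (hx : x ∉ Kp p K) (hy : y ∉ Ad p x)
    (hf : Ty p 1 x f) (hg : Ty p 1 y g) :
    ∃ s : ℕ, 0 < s ∧ s < p ∧ Ty p s (θ x) (θ f) ∧ Ty p s (θ y) (θ g) := by
  obtain ⟨a, ha, b, hb, ha0, hb0, ef⟩ := hf
  obtain ⟨c, hc, d, hd, hc0, hd0, eg⟩ := hg
  rw [pow_one, pow_one] at ef eg
  have hyF : y ∉ Kp p K := fun h => hy (Kp_le_Ad x h)
  have hx0 : x ≠ 0 := fun h => hx (h ▸ (Kp p K).zero_mem)
  have hy0 : y ≠ 0 := fun h => hyF (h ▸ (Kp p K).zero_mem)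
  have hfA : f ∈ Ad p x := by
    rw [ef]
    exact (Ad p x).add_mem ((Ad p x).mul_mem (Kp_le_Ad x ha) (self_mem_Ad x)) (Kp_le_Ad x hb)
  have hgA : g ∈ Ad p y := by
    rw [eg]
    exact (Ad p y).add_mem ((Ad p y).mul_mem (Kp_le_Ad y hc) (self_mem_Ad y)) (Kp_le_Ad y hd)
  have hf0 : f ≠ 0 := by
    intro h
    rw [ef] at h
    exact not_pow hx ha hb ha0 hb0 0 0 (Kp p K).zero_mem (by rw [h]; ring)
  have hg0 : g ≠ 0 := by
    intro h
    rw [eg] at h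
    exact not_pow hyF hc hd hc0 hd0 0 0 (Kp p K).zero_mem (by rw [h]; ring)
  set w := f + (b * c / d) * y with hw
  have hbcd : b * c / d ∈ Kp p K := (Kp p K).div_mem ((Kp p K).mul_mem hb hc) hd
  have hbcd0 : b * c / d ≠ 0 := div_ne_zero (mul_ne_zero hb0 hc0) hd0
  have hw' : w = a * x + (b / d) * g := by
    rw [hw, ef, eg]; field_simp; ring
  have hw0 : w ≠ 0 := by
    intro h
    apply hy
    have : y = -(f / (b * c / d)) := by
      field_simp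
      rw [hw] at h
      field_simp at h
      linear_combination h
    rw [this]
    exact (Ad p x).neg_mem ((Ad p x).div_mem hfA (Kp_le_Ad x hbcd))
  have hwf : w / f ∈ Ad p (y / f) := by
    have : w / f = 1 + (b * c / d) * (y / f) := by
      rw [hw]; field_simp
    rw [this]
    exact (Ad p _).add_mem (Ad p _).one_mem ((Ad p _).mul_mem (Kp_le_Ad _ hbcd) (self_mem_Ad _))
  have hwg : w / g ∈ Ad p (x / g) := by
    have : w / g = a * (x / g) + b / d := by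
      rw [hw']; field_simp
    rw [this]
    exact (Ad p _).add_mem ((Ad p _).mul_mem (Kp_le_Ad _ ha) (self_mem_Ad _))
      (Kp_le_Ad _ ((Kp p K).div_mem hb hd))
  -- transport
  have hx' : θ x ∉ Kp p L := fun h => hx ((H.fwd.mem_iff x hx0).2 h)
  have hy' : θ y ∉ Ad p (θ x) := fun h => hy ((H.adj_iff hx0 hy0).2 h)
  have hyF' : θ y ∉ Kp p L := fun h => hyF ((H.fwd.mem_iff y hy0).2 h)
  have hwf' : θ w / θ f ∈ Ad p (θ y / θ f) := by
    have h1 := H.fwd.adj _ _ (div_ne_zero hy0 hf0) (div_ne_zero hw0 hf0) hwf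
    rw [Ad_eqv (H.fwd.div y f hy0 hf0)] at h1
    exact (H.fwd.div w f hw0 hf0).mem_Ad.1 h1
  have hwg' : θ w / θ g ∈ Ad p (θ x / θ g) := by
    have h1 := H.fwd.adj _ _ (div_ne_zero hx0 hg0) (div_ne_zero hw0 hg0) hwg
    rw [Ad_eqv (H.fwd.div x g hx0 hg0)] at h1
    exact (H.fwd.div w g hw0 hg0).mem_Ad.1 h1
  have npow : ∀ (x a b f : K), x ∉ Kp p K → a ∈ Kp p K → b ∈ Kp p K → a ≠ 0 → b ≠ 0 → f ≠ 0 →
      f = a * x + b → ∀ i : ℕ, ∀ e ∈ Kp p L, θ f ≠ e * θ x ^ i := by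
    intro x a b f hx ha hb ha0 hb0 hf0 ef i e he h
    have hx0 : x ≠ 0 := fun h => hx (h ▸ (Kp p K).zero_mem)
    have he0 : e ≠ 0 := by
      rintro rfl
      rw [zero_mul] at h
      exact H.fwd.ne_zero f hf0 h
    have h1 : Eqv (Kp p L) (θ f) (θ (x ^ i)) :=
      Eqv.trans ⟨e, he, he0, h⟩ (H.fwd.pow hx0 i).symm
    have h2 : Eqv (Kp p K) f (x ^ i) :=
      (H.left f hf0).symm.trans ((H.bwd.eqv (H.fwd.ne_zero _ (pow_ne_zero _ hx0)) h1).trans
        (H.left _ (pow_ne_zero _ hx0)))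
    obtain ⟨e', he', _, h3⟩ := h2
    rw [ef] at h3
    exact not_pow hx ha hb ha0 hb0 i e' he' h3
  exact main_types hx' hy' (H.fwd.adj x f hx0 hf0 hfA) (H.fwd.adj y g hy0 hg0 hgA)
    (H.fwd.ne_zero f hf0) (H.fwd.ne_zero g hg0) (H.fwd.ne_zero w hw0) hwf' hwg'
    (npow x a b f hx ha hb ha0 hb0 hf0 ef) (npow y c d g hyF hc hd hc0 hd0 hg0 eg)

/-- The global type. -/
theorem step2 (H : DepIso p θ θ') (hdim : ∀ x : K, ∃ y : K, y ∉ Ad p x) :
    ∃ s : ℕ, 0 < s ∧ s < p ∧ ∀ x f : K, x ∉ Kp p K → Ty p 1 x f → Ty p s (θ x) (θ f) := by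
  obtain ⟨x₀, hx₀'⟩ := hdim 0
  have hx₀ : x₀ ∉ Kp p K := fun h => hx₀' (Kp_le_Ad 0 h)
  obtain ⟨y₀, hy₀⟩ := hdim x₀
  have hy₀F : y₀ ∉ Kp p K := fun h => hy₀ (Kp_le_Ad x₀ h)
  have T1 : ∀ x : K, Ty p 1 x (x + 1) := fun x =>
    ⟨1, (Kp p K).one_mem, 1, (Kp p K).one_mem, one_ne_zero, one_ne_zero, by ring⟩
  have nF : ∀ x : K, x ∉ Kp p K → θ x ∉ Kp p L := fun x hx h =>
    hx ((H.fwd.mem_iff x (fun h => hx (h ▸ (Kp p K).zero_mem))).2 h)
  obtain ⟨s, hs, hsp, hT1, hT2⟩ := H.step1 hx₀ hy₀ (T1 x₀) (T1 y₀)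
  refine ⟨s, hs, hsp, ?_⟩
  intro x f hx hf
  by_cases hxx : x ∈ Ad p x₀
  · -- then y₀ ∉ Ad x
    have hy : y₀ ∉ Ad p x := fun h => hy₀ (Ad_le (Kp_le_Ad x₀) hxx h)
    obtain ⟨r, hr, hrp, h1, h2⟩ := H.step1 hx hy hf (T1 y₀)
    have := type_unique (nF y₀ hy₀F) hr hrp hs hsp h2 hT2
    rwa [this] at h1
  · obtain ⟨r, hr, hrp, h1, h2⟩ := H.step1 hx₀ hxx (T1 x₀) hf
    have := type_unique (nF x₀ hx₀) hr hrp hs hsp h1 hT1
    rwa [this] at h2

/-- Reduction of exponents. -/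
theorem Ty_mod {x f : K} {n : ℕ} (hx0 : x ≠ 0) (hf0 : f ≠ 0) (h : Ty p n x f) :
    Ty p (n % p) x f := by
  obtain ⟨a, ha, b, hb, ha0, hb0, e⟩ := h
  set q := n / p with hq
  have hn : n = n % p + q * p := by rw [hq, mul_comm]; exact (Nat.mod_add_div n p).symm
  rw [hn, pow_add, pow_add, pow_mul, pow_mul] at e
  set X := (x ^ q) ^ p with hX
  set Y := (f ^ q) ^ p with hY
  have hXF : X ∈ Kp p K := pow_mem_Kp _
  have hYF : Y ∈ Kp p K := pow_mem_Kp _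
  have hX0 : X ≠ 0 := pow_ne_zero _ (pow_ne_zero _ hx0)
  have hY0 : Y ≠ 0 := pow_ne_zero _ (pow_ne_zero _ hf0)
  refine ⟨a * X / Y, (Kp p K).div_mem ((Kp p K).mul_mem ha hXF) hYF, b / Y,
    (Kp p K).div_mem hb hYF, div_ne_zero (mul_ne_zero ha0 hX0) hY0, div_ne_zero hb0 hY0, ?_⟩
  field_simp
  linear_combination e

/-- The line map. -/
theorem step3 (H : DepIso p θ θ') (hK : ∀ x : K, ∃ y : K, y ∉ Ad p x)
    (hL : ∀ x : L, ∃ y : L, y ∉ Ad p x) :
    ∃ s : ℕ, 0 < s ∧ s < p ∧ LineMap (Kp p K) (Kp p L) (fun u => θ u ^ s) := by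
  have hp : p.Prime := Fact.out
  obtain ⟨s, hs, hsp, hS⟩ := H.step2 hK
  obtain ⟨t, ht, htp, hT⟩ := H.symm.step2 hL
  obtain ⟨x₀, hx₀'⟩ := hK 0
  have hx₀ : x₀ ∉ Kp p K := fun h => hx₀' (Kp_le_Ad 0 h)
  have nF : ∀ x : K, x ∉ Kp p K → θ x ∉ Kp p L := fun x hx h =>
    hx ((H.fwd.mem_iff x (fun h => hx (h ▸ (Kp p K).zero_mem))).2 h)
  have nz : ∀ x : K, x ∉ Kp p K → x ≠ 0 := fun x hx h => hx (h ▸ (Kp p K).zero_mem)
  have powF : ∀ x : L, x ≠ 0 → (x ∈ Kp p L ↔ x ^ s ∈ Kp p L) := by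
    intro x hx0
    constructor
    · intro h; exact (Kp p L).pow_mem h s
    · intro h; by_contra hx; exact pow_not_mem hx hs hsp h
  -- s * t = 1 mod p
  have hst : (s * t) % p = 1 := by
    have hx0 := nz x₀ hx₀
    have T1 : Ty p 1 x₀ (x₀ + 1) :=
      ⟨1, (Kp p K).one_mem, 1, (Kp p K).one_mem, one_ne_zero, one_ne_zero, by ring⟩
    have hx1F : x₀ + 1 ∉ Kp p K := fun h => hx₀ (by
      have := (Kp p K).sub_mem h (Kp p K).one_mem
      simpa using this)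
    have hx10 := nz _ hx1F
    obtain ⟨a, ha, b, hb, ha0, hb0, e⟩ := hS x₀ (x₀ + 1) hx₀ T1
    have hs' : θ x₀ ^ s ∉ Kp p L := fun h => nF x₀ hx₀ ((powF _ (H.fwd.ne_zero _ hx0)).2 h)
    have T2 : Ty p 1 (θ x₀ ^ s) (θ (x₀ + 1) ^ s) :=
      ⟨a, ha, b, hb, ha0, hb0, by rw [pow_one, pow_one]; exact e⟩
    have T3 := hT _ _ hs' T2
    have e1 : ∀ u : K, u ≠ 0 → Eqv (Kp p K) (θ' (θ u ^ s)) (u ^ s) := by
      intro u hu
      exact (H.bwd.pow (H.fwd.ne_zero u hu) s).trans ((H.left u hu).pow s)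
    have T4 : Ty p t (x₀ ^ s) ((x₀ + 1) ^ s) :=
      Ty_eqv_left (e1 x₀ hx0) (Ty_eqv_right (e1 _ hx10) T3)
    have T5 : Ty p (s * t) x₀ (x₀ + 1) := by
      obtain ⟨a, ha, b, hb, ha0, hb0, e⟩ := T4
      exact ⟨a, ha, b, hb, ha0, hb0, by rw [pow_mul, pow_mul]; exact e⟩
    have T6 := Ty_mod hx0 hx10 T5
    have hlt : (s * t) % p < p := Nat.mod_lt _ hp.pos
    have hpos : 0 < (s * t) % p := by
      rcases Nat.eq_zero_or_pos ((s * t) % p) with h | h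
      · exfalso
        have hdvd : p ∣ s * t := Nat.dvd_of_mod_eq_zero h
        rcases (Nat.Prime.dvd_mul hp).1 hdvd with h1 | h1
        · exact absurd (Nat.le_of_dvd hs h1) (by omega)
        · exact absurd (Nat.le_of_dvd ht h1) (by omega)
      · exact h
    exact (type_unique hx₀ (Nat.one_pos) hp.one_lt hpos hlt T1 T6).symm
  -- roots
  have root : ∀ w : L, w ≠ 0 → Eqv (Kp p L) ((w ^ t) ^ s) w := by
    intro w hw
    set q := (s * t) / p with hq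
    have hn : s * t = 1 + q * p := by
      have := (Nat.mod_add_div (s * t) p).symm
      rw [hst] at this
      rw [this, hq, mul_comm]
    refine ⟨(w ^ q) ^ p, pow_mem_Kp _, pow_ne_zero _ (pow_ne_zero _ hw), ?_⟩
    rw [← pow_mul, mul_comm t s, hn, pow_add, pow_one, pow_mul]
    ring
  have rootK : ∀ w : K, w ≠ 0 → Eqv (Kp p K) ((w ^ s) ^ t) w := by
    intro w hw
    set q := (s * t) / p with hq
    have hn : s * t = 1 + q * p := by
      have := (Nat.mod_add_div (s * t) p).symm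
      rw [hst] at this
      rw [this, hq, mul_comm]
    refine ⟨(w ^ q) ^ p, pow_mem_Kp _, pow_ne_zero _ (pow_ne_zero _ hw), ?_⟩
    rw [← pow_mul, hn, pow_add, pow_one, pow_mul]
    ring
  refine ⟨s, hs, hsp, ?_⟩
  refine ⟨?_, ?_, ?_, ?_, ?_⟩
  · intro u hu
    exact pow_ne_zero _ (H.fwd.ne_zero u hu)
  · intro u v hu hv
    have := (H.fwd.mul u v hu hv).pow s
    rw [mul_pow] at this
    exact this
  · intro u hu
    rw [H.fwd.mem_iff u hu]
    exact powF _ (H.fwd.ne_zero u hu)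
  · intro x v hx hv
    have hx0 := nz x hx
    constructor
    · rintro ⟨a, ha, b, hb, ha0, hb0, e⟩
      have := hS x v hx ⟨a, ha, b, hb, ha0, hb0, by rw [pow_one, pow_one]; exact e⟩
      exact this
    · rintro ⟨a, ha, b, hb, ha0, hb0, e⟩
      have hs' : θ x ^ s ∉ Kp p L := fun h => nF x hx ((powF _ (H.fwd.ne_zero _ hx0)).2 h)
      have T2 : Ty p 1 (θ x ^ s) (θ v ^ s) :=
        ⟨a, ha, b, hb, ha0, hb0, by rw [pow_one, pow_one]; exact e⟩
      obtain ⟨c, hc, d, hd, hc0, hd0, e'⟩ := hT _ _ hs' T2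
      have e1 : ∀ u : K, u ≠ 0 → Eqv (Kp p K) (θ' (θ u ^ s) ^ t) u := by
        intro u hu
        exact (((H.bwd.pow (H.fwd.ne_zero u hu) s).trans ((H.left u hu).pow s)).pow t).trans
          (rootK u hu)
      obtain ⟨g, hg, hg0, eg⟩ := e1 x hx0
      obtain ⟨k, hk, hk0, ek⟩ := e1 v hv
      rw [eg, ek] at e'
      refine ⟨c * g / k, (Kp p K).div_mem ((Kp p K).mul_mem hc hg) hk, d / k,
        (Kp p K).div_mem hd hk, div_ne_zero (mul_ne_zero hc0 hg0) hk0, div_ne_zero hd0 hk0, ?_⟩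
      field_simp
      linear_combination e'
  · intro w hw
    refine ⟨θ' (w ^ t), H.bwd.ne_zero _ (pow_ne_zero _ hw), ?_⟩
    have h1 : Eqv (Kp p L) (θ (θ' (w ^ t)) ^ s) w :=
      ((H.right _ (pow_ne_zero _ hw)).pow s).trans (root w hw)
    exact h1.symm

end DepIso

end

end Crest.Agent.S0010
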