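import Crest.Agent.S0010aux.Deriv

set_option autoImplicit false
set_option linter.unusedSectionVars false
set_option linter.unusedSimpArgs false
set_option linter.unusedVariables false
set_option linter.unnecessarySimpa false

open Polynomial

/-!
The logarithmic derivative computation.
-/

namespace Crest.Agent.S0010

section

variable {p : ℕ} [Fact p.Prime] {K : Type*} [Field K] [CharP K p]

/-- `K^p(x)`. -/
abbrev Ad (p : ℕ) [Fact p.Prime] {K : Type*} [Field K] [CharP K p] (x : K) : Subfield K :=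
  AdjS (Kp p K) x

theorem hKp : ∀ z : K, z ^ p ∈ Kp p K := pow_mem_Kp

theorem hAd (x : K) : ∀ z : K, z ^ p ∈ Ad p x := fun z => le_AdjS _ _ (pow_mem_Kp z)

theorem Kp_le_Ad (x : K) : Kp p K ≤ Ad p x := le_AdjS _ _

theorem self_mem_Ad (x : K) : x ∈ Ad p x := self_mem_AdjS _ _

theorem Ad_le {x : K} {E : Subfield K} (hE : Kp p K ≤ E) (hx : x ∈ E) : Ad p x ≤ E :=
  AdjS_le hE hx

/-- If `D x = 1`, and `x D ψ = c ψ` with `ψ ∈ K^p(x)`, `c ∈ K^p`, then `ψ` is a multiple of a power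
of `x`. -/
theorem eigen {x : K} (hx : x ∉ Kp p K) (D : Derivation ℤ K K) (hD : D x = 1) {ψ c : K}
    (hψ : ψ ∈ Ad p x) (hψ0 : ψ ≠ 0) (hc : c ∈ Kp p K) (h : x * D ψ = c * ψ) :
    ∃ i : ℕ, i < p ∧ c = i ∧ ∃ e ∈ Kp p K, ψ = e * x ^ i := by
  have hDK : ∀ e ∈ Kp p K, D e = 0 := fun e he => deriv_Kp D he
  obtain ⟨P, hPdeg, hP⟩ := (mem_AdjS' hKp).1 hψ
  have hP0 : P ≠ 0 := by
    rintro rfl
    apply hψ0
    rw [← hP]; simp
  set c' : Kp p K := ⟨c, hc⟩ with hc'
  have h1 : aeval x (X * derivative P - C c' * P) = 0 := by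
    have h2 : D ψ = aeval x (derivative P) := by
      rw [← hP, deriv_aeval D hDK, hD, mul_one]
    rw [map_sub, map_mul, map_mul, aeval_X, aeval_C, ← h2, hP]
    show x * D ψ - c * ψ = 0
    rw [h]; ring
  have hdeg : (X * derivative P - C c' * P).natDegree < p := by
    have hd1 : (X * derivative P).natDegree ≤ P.natDegree := by
      by_cases hd0 : derivative P = 0
      · rw [hd0]; simp
      · refine (natDegree_mul_le).trans ?_
        rw [natDegree_X]
        have := natDegree_derivative_lt (p := P) (by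
          intro hn
          apply hd0
          rw [eq_C_of_natDegree_eq_zero hn, derivative_C])
        omega
    have hd2 : (C c' * P).natDegree ≤ P.natDegree := natDegree_C_mul_le _ _
    have := natDegree_sub_le (X * derivative P) (C c' * P)
    omega
  have h3 := aeval_eq_zero hKp hx hdeg h1
  have hcoef : ∀ n : ℕ, ((n : Kp p K) - c') * P.coeff n = 0 := by
    intro n
    have := congrArg (fun Q : (Kp p K)[X] => Q.coeff n) h3
    simp only [coeff_sub, coeff_C_mul, coeff_zero] at this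
    cases n with
    | zero =>
      simp only [mul_coeff_zero, coeff_X_zero, zero_mul] at this
      push_cast
      linear_combination this
    | succ n =>
      rw [coeff_X_mul, coeff_derivative] at this
      push_cast
      linear_combination this
  obtain ⟨i, hi⟩ : ∃ i, P.coeff i ≠ 0 := by
    by_contra hcon
    push Not at hcon
    exact hP0 (Polynomial.ext (by simpa using hcon))
  have hip : i < p := lt_of_le_of_lt (le_natDegree_of_ne_zero hi) hPdeg
  have hci : (i : Kp p K) = c' := by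
    have := hcoef i
    rcases mul_eq_zero.1 this with h | h
    · linear_combination h
    · exact absurd h hi
  have hother : ∀ j, j ≠ i → P.coeff j = 0 := by
    intro j hj
    by_contra hcj
    have hjp : j < p := lt_of_le_of_lt (le_natDegree_of_ne_zero hcj) hPdeg
    have hcj' : (j : Kp p K) = c' := by
      have := hcoef j
      rcases mul_eq_zero.1 this with h | h
      · linear_combination h
      · exact absurd h hcj
    have : ((j : ℕ) : K) = ((i : ℕ) : K) := by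
      have := congrArg (fun t : Kp p K => (t : K)) (hcj'.trans hci.symm)
      simpa using this
    have hmod := (CharP.cast_eq_iff_mod_eq K p).1 this
    rw [Nat.mod_eq_of_lt hjp, Nat.mod_eq_of_lt hip] at hmod
    exact hj hmod
  have hPmon : P = monomial i (P.coeff i) := by
    ext j
    rw [coeff_monomial]
    by_cases hij : i = j
    · subst hij; simp
    · rw [if_neg hij, hother j (Ne.symm hij)]
  refine ⟨i, hip, ?_, (P.coeff i : K), (P.coeff i).2, ?_⟩
  · have := congrArg (fun t : Kp p K => (t : K)) hci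
    simpa using this.symm
  · rw [← hP, hPmon, aeval_monomial, coeff_monomial, if_pos rfl]
    rfl

/-- `x ^ s ∉ K^p` for `0 < s < p`. -/
theorem pow_not_mem {x : K} (hx : x ∉ Kp p K) {s : ℕ} (hs : 0 < s) (hsp : s < p) :
    x ^ s ∉ Kp p K := by
  intro h
  obtain ⟨D, hD, hDx⟩ := exists_deriv (E := Kp p K) hKp hx
  have h1 := hD _ h
  rw [Derivation.leibniz_pow, hDx] at h1
  have hx0 : x ≠ 0 := fun h => hx (h ▸ (Kp p K).zero_mem)
  have hs0 : ((s : ℕ) : K) ≠ 0 := by
    intro h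
    rw [CharP.cast_eq_zero_iff K p] at h
    exact absurd (Nat.le_of_dvd hs h) (by omega)
  simp only [smul_eq_mul, mul_one, nsmul_eq_mul] at h1
  rcases mul_eq_zero.1 h1 with h2 | h2
  · exact hs0 h2
  · exact pow_ne_zero _ hx0 h2

/-- `f` is a type-`s` line point over `x`. -/
def Ty (p : ℕ) [Fact p.Prime] {K : Type*} [Field K] [CharP K p] (s : ℕ) (x f : K) : Prop :=
  ∃ a ∈ Kp p K, ∃ b ∈ Kp p K, a ≠ 0 ∧ b ≠ 0 ∧ f ^ s = a * x ^ s + b

theorem type_of {x : K} (hx : x ∉ Kp p K) (D : Derivation ℤ K K) (hD : D x = 1) {f φ e : K}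
    (hf : f ∈ Ad p x) (hf0 : f ≠ 0) (hφ : x * D f = φ * f) (hφ0 : φ ≠ 0) {i : ℕ} (hi : 0 < i)
    (hip : i < p) (he : e ∈ Kp p K) (he0 : e ≠ 0) (h : φ - 1 = e * x ^ i * φ) :
    Ty p (p - i) x f := by
  have hx0 : x ≠ 0 := fun h => hx (h ▸ (Kp p K).zero_mem)
  have hDK : ∀ e ∈ Kp p K, D e = 0 := fun e he => deriv_Kp D he
  set s := p - i with hs
  have hs0 : 0 < s := by omega
  have hsp : s < p := by omega
  set e' := e * x ^ p with he'
  have he'F : e' ∈ Kp p K := (Kp p K).mul_mem he (pow_mem_Kp x)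
  have he'0 : e' ≠ 0 := mul_ne_zero he0 (pow_ne_zero _ hx0)
  have hxs : x ^ s ∉ Kp p K := pow_not_mem hx hs0 hsp
  have hxse : x ^ s - e' ≠ 0 := fun h => hxs (by
    have : x ^ s = e' := by linear_combination h
    rw [this]; exact he'F)
  have hpow : x ^ s * x ^ i = x ^ p := by
    rw [← pow_add]; congr 1; omega
  have hφ' : φ * (x ^ s - e') = x ^ s := by
    rw [he', ← hpow]
    linear_combination (x ^ s) * h
  have hxne : x ^ s ≠ 0 := pow_ne_zero _ hx0
  -- D (f^s / (x^s - e')) = 0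
  have hDfs : x * D (f ^ s) = s * φ * f ^ s := by
    rw [Derivation.leibniz_pow]
    simp only [smul_eq_mul, nsmul_eq_mul]
    obtain ⟨t, ht⟩ : ∃ t, s = t + 1 := ⟨s - 1, by omega⟩
    rw [ht]
    simp only [Nat.add_sub_cancel]
    push_cast
    linear_combination ((t : K) + 1) * f ^ t * hφ
  have hDxs : x * D (x ^ s) = s * x ^ s := by
    rw [Derivation.leibniz_pow, hD]
    simp only [smul_eq_mul, nsmul_eq_mul]
    obtain ⟨t, ht⟩ : ∃ t, s = t + 1 := ⟨s - 1, by omega⟩
    rw [ht]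
    simp only [Nat.add_sub_cancel]
    push_cast
    ring
  set q := f ^ s / (x ^ s - e') with hq
  have hqf : f ^ s = q * (x ^ s - e') := by rw [hq]; field_simp
  have hDq : D q = 0 := by
    have h1 : D (f ^ s) = D (q * (x ^ s - e')) := by rw [← hqf]
    rw [Derivation.leibniz, map_sub, hDK e' he'F] at h1
    simp only [smul_eq_mul, sub_zero] at h1
    have h2 : x * D q * (x ^ s - e') = 0 := by
      have h3 : x * D (f ^ s) = q * (x * D (x ^ s)) + (x ^ s - e') * (x * D q) := by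
        rw [h1]; ring
      rw [hDfs, hDxs, hqf] at h3
      linear_combination (-1 : K) * h3 + (s : K) * q * hφ'
    rcases mul_eq_zero.1 h2 with h3 | h3
    · rcases mul_eq_zero.1 h3 with h4 | h4
      · exact absurd h4 hx0
      · exact h4
    · exact absurd h3 hxse
  have hqA : q ∈ Ad p x := by
    refine (Ad p x).div_mem ((Ad p x).pow_mem hf s) ((Ad p x).sub_mem ?_ ?_)
    · exact (Ad p x).pow_mem (self_mem_Ad x) s
    · exact Kp_le_Ad x he'F
  have hqF : q ∈ Kp p K := mem_of_deriv_zero hKp D hDK (by rw [hD]; exact one_ne_zero) hqA hDq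
  have hq0 : q ≠ 0 := by
    intro h
    rw [h, zero_mul] at hqf
    exact pow_ne_zero _ hf0 hqf
  refine ⟨q, hqF, -(q * e'), (Kp p K).neg_mem ((Kp p K).mul_mem hqF he'F), hq0,
    neg_ne_zero.2 (mul_ne_zero hq0 he'0), ?_⟩
  rw [hqf]; ring

/-- Dependence kills the wedge of two derivations. -/
theorem dep_wedge (D₁ D₂ : Derivation ℤ K K) {z h : K} (hh : h ∈ Ad p z) :
    D₁ z * D₂ h = D₂ z * D₁ h := by
  obtain ⟨P, rfl⟩ := (mem_AdjS hKp).1 hh
  rw [deriv_aeval D₁ (fun e he => deriv_Kp D₁ he), deriv_aeval D₂ (fun e he => deriv_Kp D₂ he)]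
  ring

/-- The main computation. -/
theorem main_types {x y f g w : K} (hx : x ∉ Kp p K) (hy : y ∉ Ad p x)
    (hf : f ∈ Ad p x) (hg : g ∈ Ad p y) (hf0 : f ≠ 0) (hg0 : g ≠ 0) (hw0 : w ≠ 0)
    (hwf : w / f ∈ Ad p (y / f)) (hwg : w / g ∈ Ad p (x / g))
    (hfx : ∀ i : ℕ, ∀ e ∈ Kp p K, f ≠ e * x ^ i) (hgy : ∀ i : ℕ, ∀ e ∈ Kp p K, g ≠ e * y ^ i) :
    ∃ s : ℕ, 0 < s ∧ s < p ∧ Ty p s x f ∧ Ty p s y g := by
  have hyF : y ∉ Kp p K := fun h => hy (Kp_le_Ad x h)
  have hxy : x ∉ Ad p y := fun h => hy (exchange hKp hx h)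
  have hx0 : x ≠ 0 := fun h => hx (h ▸ (Kp p K).zero_mem)
  have hy0 : y ≠ 0 := fun h => hyF (h ▸ (Kp p K).zero_mem)
  obtain ⟨D₁, hD₁, hD₁x⟩ := exists_deriv (hAd y) hxy
  obtain ⟨D₂, hD₂, hD₂y⟩ := exists_deriv (hAd x) hy
  have hD₁F : ∀ e ∈ Kp p K, D₁ e = 0 := fun e he => deriv_Kp D₁ he
  have hD₂F : ∀ e ∈ Kp p K, D₂ e = 0 := fun e he => deriv_Kp D₂ he
  have hD₁y : D₁ y = 0 := hD₁ y (self_mem_Ad y)
  have hD₂x : D₂ x = 0 := hD₂ x (self_mem_Ad x)
  have hD₁g : D₁ g = 0 := hD₁ g hg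
  have hD₂f : D₂ f = 0 := hD₂ f hf
  have hinter : ∀ z : K, z ∈ Ad p x → z ∈ Ad p y → z ∈ Kp p K := fun z hz1 hz2 =>
    mem_of_deriv_zero hKp D₁ hD₁F (by rw [hD₁x]; exact one_ne_zero) hz1 (hD₁ z hz2)
  set φ := x * D₁ f / f with hφ
  set γ := y * D₂ g / g with hγ
  have hφe : x * D₁ f = φ * f := by rw [hφ]; field_simp
  have hγe : y * D₂ g = γ * g := by rw [hγ]; field_simp
  have hD₁fA : D₁ f ∈ Ad p x := deriv_mem hKp D₁ hD₁F (by rw [hD₁x]; exact (Ad p x).one_mem) hf
  have hD₂gA : D₂ g ∈ Ad p y := deriv_mem hKp D₂ hD₂F (by rw [hD₂y]; exact (Ad p y).one_mem) hg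
  have hφA : φ ∈ Ad p x := (Ad p x).div_mem ((Ad p x).mul_mem (self_mem_Ad x) hD₁fA) hf
  have hγA : γ ∈ Ad p y := (Ad p y).div_mem ((Ad p y).mul_mem (self_mem_Ad y) hD₂gA) hg
  have hD₂φ : D₂ φ = 0 := hD₂ φ hφA
  have hD₁γ : D₁ γ = 0 := hD₁ γ hγA
  -- `φ` is not in `K^p`
  have hφF : φ ∉ Kp p K := by
    intro h
    obtain ⟨i, _, _, e, he, hfe⟩ := eigen hx D₁ hD₁x hf hf0 h hφe
    exact hfx i e he hfe
  have hγF : γ ∉ Kp p K := by
    intro h
    obtain ⟨i, _, _, e, he, hfe⟩ := eigen hyF D₂ hD₂y hg hg0 h hγe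
    exact hgy i e he hfe
  have hφ0 : φ ≠ 0 := fun h => hφF (h ▸ (Kp p K).zero_mem)
  have hφ1 : φ - 1 ≠ 0 := fun h => hφF (by
    have : φ = 1 := by linear_combination h
    rw [this]; exact (Kp p K).one_mem)
  have hγ0 : γ ≠ 0 := fun h => hγF (h ▸ (Kp p K).zero_mem)
  have hγ1 : γ - 1 ≠ 0 := fun h => hγF (by
    have : γ = 1 := by linear_combination h
    rw [this]; exact (Kp p K).one_mem)
  -- logarithmic derivatives of w
  set P := x * D₁ w / w with hP
  set Q := y * D₂ w / w with hQ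
  have hPe : x * D₁ w = P * w := by rw [hP]; field_simp
  have hQe : y * D₂ w = Q * w := by rw [hQ]; field_simp
  have hDdiv : ∀ (D : Derivation ℤ K K) (a b : K), b ≠ 0 → D (a / b) * b ^ 2 = D a * b - a * D b := by
    intro D a b hb
    have h1 : D (a / b * b) = D a := by rw [div_mul_cancel₀ _ hb]
    rw [Derivation.leibniz] at h1
    simp only [smul_eq_mul] at h1
    have h2 : a / b * b = a := div_mul_cancel₀ _ hb
    linear_combination b * h1 - (D b) * h2
  have E1 : P = φ * (1 - Q) := by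
    have h1 := dep_wedge D₁ D₂ hwf
    have a1 := hDdiv D₁ y f hf0
    have a2 := hDdiv D₂ w f hf0
    have a3 := hDdiv D₂ y f hf0
    have a4 := hDdiv D₁ w f hf0
    rw [hD₁y] at a1
    rw [hD₂f] at a2 a3
    rw [hD₂y] at a3
    have h2 : (D₁ (y / f) * f ^ 2) * (D₂ (w / f) * f ^ 2) =
        (D₂ (y / f) * f ^ 2) * (D₁ (w / f) * f ^ 2) := by
      linear_combination (f ^ 4) * h1
    rw [a1, a2, a3, a4] at h2
    have h3 : f * (P * w * f - (φ * f) * (w - Q * w)) = 0 := by
      rw [← hPe, ← hQe, ← hφe]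
      linear_combination (-x) * h2
    have h4 : f * w * f * (P - φ * (1 - Q)) = 0 := by linear_combination h3
    rcases mul_eq_zero.1 h4 with h5 | h5
    · exact absurd h5 (mul_ne_zero (mul_ne_zero hf0 hw0) hf0)
    · linear_combination h5
  have E2 : Q = γ * (1 - P) := by
    have h1 := dep_wedge D₂ D₁ hwg
    have a1 := hDdiv D₂ x g hg0
    have a2 := hDdiv D₁ w g hg0
    have a3 := hDdiv D₁ x g hg0
    have a4 := hDdiv D₂ w g hg0
    rw [hD₂x] at a1
    rw [hD₁g] at a2 a3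
    rw [hD₁x] at a3
    have h2 : (D₂ (x / g) * g ^ 2) * (D₁ (w / g) * g ^ 2) =
        (D₁ (x / g) * g ^ 2) * (D₂ (w / g) * g ^ 2) := by
      linear_combination (g ^ 4) * h1
    rw [a1, a2, a3, a4] at h2
    have h3 : g * (Q * w * g - (γ * g) * (w - P * w)) = 0 := by
      rw [← hPe, ← hQe, ← hγe]
      linear_combination (-y) * h2
    have h4 : g * w * g * (Q - γ * (1 - P)) = 0 := by linear_combination h3
    rcases mul_eq_zero.1 h4 with h5 | h5
    · exact absurd h5 (mul_ne_zero (mul_ne_zero hg0 hw0) hg0)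
    · linear_combination h5
  -- commutation
  have hcomm : D₁ (D₂ w) = D₂ (D₁ w) := by
    have hB : ∀ z, (⁅D₁, D₂⁆ : Derivation ℤ K K) z = D₁ (D₂ z) - D₂ (D₁ z) := fun z =>
      Derivation.commutator_apply z
    have hBF : ∀ e ∈ Kp p K, (⁅D₁, D₂⁆ : Derivation ℤ K K) e = 0 := fun e he => deriv_Kp _ he
    have hBx : (⁅D₁, D₂⁆ : Derivation ℤ K K) x = 0 := by
      rw [hB, hD₂x, hD₁x]; simp
    have hBy : (⁅D₁, D₂⁆ : Derivation ℤ K K) y = 0 := by
      rw [hB, hD₂y, hD₁y]; simp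
    have hBf : (⁅D₁, D₂⁆ : Derivation ℤ K K) f = 0 := deriv_zero hKp _ hBF hBx hf
    have hByf : (⁅D₁, D₂⁆ : Derivation ℤ K K) (y / f) = 0 := by
      have := hDdiv ⁅D₁, D₂⁆ y f hf0
      rw [hBy, hBf] at this
      have h2 : (⁅D₁, D₂⁆ : Derivation ℤ K K) (y / f) * f ^ 2 = 0 := by
        rw [this]; ring
      rcases mul_eq_zero.1 h2 with h3 | h3
      · exact h3
      · exact absurd h3 (pow_ne_zero _ hf0)
    have hBwf : (⁅D₁, D₂⁆ : Derivation ℤ K K) (w / f) = 0 := deriv_zero hKp _ hBF hByf hwf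
    have hBw : (⁅D₁, D₂⁆ : Derivation ℤ K K) w = 0 := by
      have : w = (w / f) * f := by field_simp
      rw [this, Derivation.leibniz, hBwf, hBf]
      simp
    rw [hB] at hBw
    linear_combination hBw
  have hPQ : x * D₁ Q = y * D₂ P := by
    have a1 := hDdiv D₁ (y * D₂ w) w hw0
    have a2 := hDdiv D₂ (x * D₁ w) w hw0
    rw [← hQ, Derivation.leibniz, hD₁y] at a1
    rw [← hP, Derivation.leibniz, hD₂x] at a2
    simp only [smul_eq_mul, mul_zero, add_zero] at a1 a2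
    have : w ^ 2 * (x * D₁ Q - y * D₂ P) = 0 := by
      linear_combination x * a1 - y * a2 + x * y * w * hcomm
    rcases mul_eq_zero.1 this with h | h
    · exact absurd h (pow_ne_zero _ hw0)
    · linear_combination h
  -- solve
  set φ₁ := x * D₁ φ with hφ₁
  set γ₁ := y * D₂ γ with hγ₁
  have hΔ : 1 - γ * φ ≠ 0 := by
    intro h
    apply hφF
    have h1 : φ = γ⁻¹ := by
      field_simp
      linear_combination -h
    exact hinter φ hφA (by rw [h1]; exact (Ad p y).inv_mem hγA)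
  have Q1 : Q * (1 - γ * φ) = γ * (1 - φ) := by linear_combination E2 - γ * E1
  have P1 : P * (1 - γ * φ) = φ * (1 - γ) := by linear_combination E1 - φ * E2
  have dQ : x * D₁ Q * (1 - γ * φ) = γ * φ₁ * (Q - 1) := by
    have h1 : D₁ (Q * (1 - γ * φ)) = D₁ (γ * (1 - φ)) := by rw [Q1]
    simp only [Derivation.leibniz, map_sub, hD₁γ, Derivation.map_one_eq_zero, smul_eq_mul] at h1
    rw [hφ₁]
    linear_combination x * h1
  have dP : y * D₂ P * (1 - γ * φ) = φ * γ₁ * (P - 1) := by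
    have h1 : D₂ (P * (1 - γ * φ)) = D₂ (φ * (1 - γ)) := by rw [P1]
    simp only [Derivation.leibniz, map_sub, hD₂φ, Derivation.map_one_eq_zero, smul_eq_mul] at h1
    rw [hγ₁]
    linear_combination y * h1
  have key : γ * (γ - 1) * φ₁ = φ * (φ - 1) * γ₁ := by
    have h1 : x * D₁ Q * (1 - γ * φ) ^ 2 = γ * (γ - 1) * φ₁ := by
      linear_combination (1 - γ * φ) * dQ + γ * φ₁ * Q1
    have h2 : y * D₂ P * (1 - γ * φ) ^ 2 = φ * (φ - 1) * γ₁ := by
      linear_combination (1 - γ * φ) * dP + φ * γ₁ * P1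
    rw [← h1, ← h2, hPQ]
  -- the constant
  set c := φ₁ / (φ * (φ - 1)) with hc
  have hc' : c = γ₁ / (γ * (γ - 1)) := by
    rw [hc, div_eq_div_iff (mul_ne_zero hφ0 hφ1) (mul_ne_zero hγ0 hγ1)]
    linear_combination key
  have hφ₁A : φ₁ ∈ Ad p x := (Ad p x).mul_mem (self_mem_Ad x)
    (deriv_mem hKp D₁ hD₁F (by rw [hD₁x]; exact (Ad p x).one_mem) hφA)
  have hγ₁A : γ₁ ∈ Ad p y := (Ad p y).mul_mem (self_mem_Ad y)
    (deriv_mem hKp D₂ hD₂F (by rw [hD₂y]; exact (Ad p y).one_mem) hγA)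
  have hcF : c ∈ Kp p K := by
    apply hinter
    · exact (Ad p x).div_mem hφ₁A ((Ad p x).mul_mem hφA ((Ad p x).sub_mem hφA (Ad p x).one_mem))
    · rw [hc']
      exact (Ad p y).div_mem hγ₁A ((Ad p y).mul_mem hγA ((Ad p y).sub_mem hγA (Ad p y).one_mem))
  -- general argument for both variables
  have fin : ∀ (z φ f : K) (D : Derivation ℤ K K), z ∉ Kp p K → D z = 1 → φ ∈ Ad p z →
      φ ∉ Kp p K → φ ≠ 0 → φ - 1 ≠ 0 → f ∈ Ad p z → f ≠ 0 → z * D f = φ * f →
      z * D φ = c * (φ * (φ - 1)) → ∃ i : ℕ, 0 < i ∧ i < p ∧ c = i ∧ Ty p (p - i) z f := by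
    intro z φ f D hz hDz hφA hφF hφ0 hφ1 hf hf0 hφe hder
    have hψA : (φ - 1) / φ ∈ Ad p z :=
      (Ad p z).div_mem ((Ad p z).sub_mem hφA (Ad p z).one_mem) hφA
    have hψ0 : (φ - 1) / φ ≠ 0 := div_ne_zero hφ1 hφ0
    have hψe : z * D ((φ - 1) / φ) = c * ((φ - 1) / φ) := by
      have h1 := hDdiv D (φ - 1) φ hφ0
      simp only [map_sub, Derivation.map_one_eq_zero] at h1
      have h2 : φ ^ 2 * (z * D ((φ - 1) / φ) - c * ((φ - 1) / φ)) = 0 := by
        have h3 : φ ^ 2 * (c * ((φ - 1) / φ)) = c * (φ * (φ - 1)) := by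
          field_simp
        rw [mul_sub, h3]
        linear_combination z * h1 + hder
      rcases mul_eq_zero.1 h2 with h | h
      · exact absurd h (pow_ne_zero _ hφ0)
      · linear_combination h
    obtain ⟨i, hip, hci, e, he, hψi⟩ := eigen hz D hDz hψA hψ0 hcF hψe
    have he0 : e ≠ 0 := by
      rintro rfl
      rw [zero_mul] at hψi
      exact hψ0 hψi
    have hi : 0 < i := by
      rcases Nat.eq_zero_or_pos i with h | h
      · exfalso
        subst h
        rw [pow_zero, mul_one] at hψi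
        apply hφF
        have h1 : φ = (1 - e)⁻¹ := by
          have h2 : φ * (1 - e) = 1 := by
            rw [div_eq_iff hφ0] at hψi
            linear_combination hψi
          exact eq_inv_of_mul_eq_one_left h2
        rw [h1]
        exact (Kp p K).inv_mem ((Kp p K).sub_mem (Kp p K).one_mem he)
      · exact h
    refine ⟨i, hi, hip, hci, ?_⟩
    refine type_of hz D hDz hf hf0 hφe hφ0 hi hip he he0 ?_
    rw [div_eq_iff hφ0] at hψi
    exact hψi
  obtain ⟨i, hi, hip, hci, hTx⟩ := fin x φ f D₁ hx hD₁x hφA hφF hφ0 hφ1 hf hf0 hφe (by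
    rw [hc]; field_simp; rw [hφ₁])
  obtain ⟨j, hj, hjp, hcj, hTy⟩ := fin y γ g D₂ hyF hD₂y hγA hγF hγ0 hγ1 hg hg0 hγe (by
    rw [hc']; field_simp; rw [hγ₁])
  have hij : i = j := by
    have : ((i : ℕ) : K) = ((j : ℕ) : K) := hci.symm.trans hcj
    have hmod := (CharP.cast_eq_iff_mod_eq K p).1 this
    rwa [Nat.mod_eq_of_lt hjp, Nat.mod_eq_of_lt hip] at hmod
  subst hij
  exact ⟨p - i, by omega, by omega, hTx, hTy⟩

/-- Uniqueness of the type. -/
theorem type_unique {x f : K} (hx : x ∉ Kp p K) {s r : ℕ} (hs : 0 < s) (hsp : s < p)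
    (hr : 0 < r) (hrp : r < p) (h1 : Ty p s x f) (h2 : Ty p r x f) : s = r := by
  obtain ⟨a, ha, b, hb, ha0, hb0, e1⟩ := h1
  obtain ⟨c, hc, d, hd, hc0, hd0, e2⟩ := h2
  obtain ⟨D, hD, hDx⟩ := exists_deriv (E := Kp p K) hKp hx
  have hx0 : x ≠ 0 := fun h => hx (h ▸ (Kp p K).zero_mem)
  have hcast : ∀ n : ℕ, 0 < n → n < p → ((n : ℕ) : K) ≠ 0 := by
    intro n hn hnp h
    rw [CharP.cast_eq_zero_iff K p] at h
    exact absurd (Nat.le_of_dvd hn h) (by omega)
  have gen : ∀ (n : ℕ) (a b : K), 0 < n → n < p → a ∈ Kp p K → b ∈ Kp p K →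
      f ^ n = a * x ^ n + b → x * D f * (a * x ^ n + b) = a * x ^ n * f := by
    intro n a b hn hnp ha hb e
    have h1 : D (f ^ n) = D (a * x ^ n + b) := by rw [e]
    rw [map_add, Derivation.leibniz, hD a ha, hD b hb, Derivation.leibniz_pow,
      Derivation.leibniz_pow, hDx] at h1
    simp only [smul_eq_mul, nsmul_eq_mul, mul_one, mul_zero, add_zero] at h1
    obtain ⟨t, rfl⟩ : ∃ t, n = t + 1 := ⟨n - 1, by omega⟩
    simp only [Nat.add_sub_cancel] at h1
    have h2 : ((t + 1 : ℕ) : K) * (x * D f * (a * x ^ (t + 1) + b) - a * x ^ (t + 1) * f) = 0 := by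
      rw [← e]
      linear_combination x * f * h1
    rcases mul_eq_zero.1 h2 with h3 | h3
    · exact absurd h3 (hcast _ hn hnp)
    · linear_combination h3
  have g1 := gen s a b hs hsp ha hb e1
  have g2 := gen r c d hr hrp hc hd e2
  have hf0 : f ≠ 0 := by
    rintro rfl
    rw [zero_pow (by omega)] at e1
    apply pow_not_mem hx hs hsp
    have : x ^ s = -(b / a) := by
      field_simp
      linear_combination -e1
    rw [this]
    exact (Kp p K).neg_mem ((Kp p K).div_mem hb ha)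
  have g3 : a * d * x ^ s = c * b * x ^ r := by
    have : f * (a * d * x ^ s - c * b * x ^ r) = 0 := by
      linear_combination (a * x ^ s + b) * g2 - (c * x ^ r + d) * g1
    rcases mul_eq_zero.1 this with h | h
    · exact absurd h hf0
    · linear_combination h
  have fin : ∀ (s r : ℕ) (a b c d : K), s < p → a ≠ 0 → d ≠ 0 → a ∈ Kp p K → b ∈ Kp p K →
      c ∈ Kp p K → d ∈ Kp p K → a * d * x ^ s = c * b * x ^ r → ¬ r < s := by
    intro s r a b c d hsp ha0 hd0 ha hb hc hd g3 hlt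
    obtain ⟨t, rfl⟩ : ∃ t, s = r + t := ⟨s - r, by omega⟩
    apply pow_not_mem hx (s := t) (by omega) (by omega)
    have : x ^ t = c * b / (a * d) := by
      rw [eq_div_iff (mul_ne_zero ha0 hd0)]
      have h5 : x ^ r * (x ^ t * (a * d) - c * b) = 0 := by
        rw [pow_add] at g3
        linear_combination g3
      rcases mul_eq_zero.1 h5 with h | h
      · exact absurd h (pow_ne_zero _ hx0)
      · linear_combination h
    rw [this]
    exact (Kp p K).div_mem ((Kp p K).mul_mem hc hb) ((Kp p K).mul_mem ha hd)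
  have n1 := fin s r a b c d hsp ha0 hd0 ha hb hc hd g3
  have n2 := fin r s c d a b hrp hc0 hb0 hc hd ha hb (by linear_combination -g3)
  omega

end

end Crest.Agent.S0010
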